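import Vale.Agent.P159.T1.S.H802.AmpS

/-!
The exploration and the induction on the halvings.
-/

open Filter Topology

namespace Vale.Agent.P159.T1.S.H802

open Vale.Agent.P159 Vale.Agent.P159.H353 Vale.Agent.P159.T1.H934 Vale.Agent.P159.R2.H729
open Vale.Agent.P159.T1.H897 (LJ lowS kt kt_nonneg kt_le kt_lim hasSum_kt_dbl summable_tilt2
  sum_elim LJ_of_dbl)

section base

variable {V E : Type} [Fintype V] [Fintype E] {s t : E → V}

lemma Zp_shift (J : E → ℝ) (xr : V) (N : Finset V) (p q c : ℤ) (r : V → ℝ) :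
    Zp s t J xr N (p + c) (q + c) r = Real.exp (∑ v, r v * (c : ℝ)) * Zp s t J xr N p q r := by
  classical
  have key : ∀ F : (V → ℤ) → ℝ, ∑' h, F (h + fun _ => c) = ∑' h, F h := fun F =>
    (Equiv.addRight (fun _ : V => c)).tsum_eq F
  unfold Zp
  rw [← tsum_mul_left, ← key]
  refine tsum_congr fun h => ?_
  rw [W_add_const]
  have e1 : ∑ v, r v * (((h + fun _ => c : V → ℤ) v : ℤ) : ℝ) = ∑ v, r v * (c : ℝ) +
      ∑ v, r v * (h v : ℝ) := by
    rw [← Finset.sum_add_distrib]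
    refine Finset.sum_congr rfl fun v _ => ?_
    simp only [Pi.add_apply]
    push_cast
    ring
  rw [e1, Real.exp_add]
  have e2 : ((∀ v ∈ N, (h + fun _ => c : V → ℤ) v = p + c) ∧ (h + fun _ => c : V → ℤ) xr = q + c) ↔
      ((∀ v ∈ N, h v = p) ∧ h xr = q) := by
    simp only [Pi.add_apply]
    constructor
    · rintro ⟨h1, h2⟩
      exact ⟨fun v hv => by have := h1 v hv; omega, by omega⟩
    · rintro ⟨h1, h2⟩
      exact ⟨fun v hv => by have := h1 v hv; omega, by omega⟩
  by_cases h3 : (∀ v ∈ N, h v = p) ∧ h xr = q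
  · rw [if_pos (e2.2 h3), if_pos h3]
    ring
  · rw [if_neg (fun h4 => h3 (e2.1 h4)), if_neg h3, mul_zero]

/-- there is a set of vertices with heights `≤ 0` which contains the left lip, misses `T` and the
right lip, and all outer neighbours of which have height exactly `1` -/
def GoodT (s t : E → V) (xl xr : V) (T : Set V) (h : V → ℤ) : Prop :=
  ∃ S : Finset V, xl ∈ S ∧ xr ∉ S ∧ (∀ v ∈ S, v ∉ T) ∧ (∀ v ∈ S, h v ≤ 0) ∧
    ∀ u ∈ S, ∀ v, v ∉ S → adjG s t u v → h v = 1

open Classical in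
/-- **Exploration with the last line kept.** -/
theorem ampS0 (hc : Conn s t) {J : E → ℝ} (hJ : ∀ e, 0 ≤ J e) {xl xr : V} {T : Set V}
    {r r1 : V → ℝ} {M : ℝ} (hM : 0 ≤ M) (hr : ∀ v, v ∉ T → 0 ≤ r v)
    (hr1 : ∀ v, v ∉ T → r1 v = r v) (hK : KeyC s t J xl xr T r r1 M) :
    (∑' h : V → ℤ, if (h xl = 0 ∧ h xr = 0) ∧ GoodT s t xl xr T h then
      W (grd s t) J h * Real.exp (∑ v, r v * (h v : ℝ)) else 0) ≤
    M * Zt s t J xl xr r1 0 1 := by
  set Fam : Finset (Finset V) := Finset.univ.filter fun S => xr ∉ S ∧ ∀ v ∈ S, v ∉ T with hFam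
  set F : Finset V → (V → ℤ) → ℝ := fun S h =>
    if (∀ v ∈ S, h v < 0) ∧ (xl ∈ S ∧ h xl = -1) then
      Real.exp (∑ v ∈ S, r v * ((h v : ℝ) + 1)) else 0 with hF
  set G1 : Finset V → (V → ℤ) → ℝ := fun S h =>
    if h xr = -1 then Real.exp (∑ v ∈ Sᶜ, r v * ((h v : ℝ) + 1)) else 0 with hG1
  set G2 : Finset V → (V → ℤ) → ℝ := fun S h =>
    if h xr = 0 then Real.exp (∑ v ∈ Sᶜ, r1 v * ((h v : ℝ) + 1)) else 0 with hG2
  have hF0 : ∀ S h, 0 ≤ F S h := fun S h => by
    simp only [hF]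
    split_ifs
    · exact (Real.exp_pos _).le
    · exact le_rfl
  have hF1 : ∀ S ∈ Fam, ∀ h, F S h ≤ 1 := fun S hS h => by
    have hST := (Finset.mem_filter.1 hS).2.2
    simp only [hF]
    split_ifs with hc
    · rw [Real.exp_le_one_iff]
      refine Finset.sum_nonpos fun v hv => ?_
      have h1 : (h v : ℝ) + 1 ≤ 0 := by
        have h2 : h v + 1 ≤ 0 := hc.1 v hv
        exact_mod_cast h2
      exact mul_nonpos_of_nonneg_of_nonpos (hr v (hST v hv)) h1
    · norm_num
  have hG10 : ∀ S h, 0 ≤ G1 S h := fun S h => by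
    simp only [hG1]
    split_ifs
    · exact (Real.exp_pos _).le
    · exact le_rfl
  have hG20 : ∀ S h, 0 ≤ G2 S h := fun S h => by
    simp only [hG2]
    split_ifs
    · exact (Real.exp_pos _).le
    · exact le_rfl
  have key : ∀ S : Finset V, ∃ m : ℝ × ℝ, S ∈ Fam →
      HasSum (fun h : V → ℤ => if Ex s t (px xl) h = S then
        W (grd s t) J h * (F S h * G1 S h) else 0) m.1 ∧
      HasSum (fun h : V → ℤ => if Ex s t (px xl) h = S then
        W (grd s t) J h * (F S h * G2 S h) else 0) m.2 ∧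
      m.1 ≤ M * m.2 := by
    intro S
    by_cases hSF : S ∈ Fam
    swap
    · exact ⟨0, fun h => absurd h hSF⟩
    obtain ⟨hxr, hST⟩ := (Finset.mem_filter.1 hSF).2
    by_cases hL : LC s t (px xl) S
    swap
    · have h0 : ∀ h : V → ℤ, Ex s t (px xl) h ≠ S := fun h hE => hL (hE ▸ LC_Ex h)
      refine ⟨(0, 0), fun _ => ⟨?_, ?_, by simp⟩⟩
      · simp only [h0, if_false]; exact hasSum_zero
      · simp only [h0, if_false]; exact hasSum_zero
    by_cases hxl : xl ∈ S
    swap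
    · have h0 : ∀ h : V → ℤ, F S h = 0 := fun h => by
        simp only [hF]
        rw [if_neg fun h' => hxl h'.2.1]
      refine ⟨(0, 0), fun _ => ⟨?_, ?_, by simp⟩⟩
      · simp only [h0, zero_mul, mul_zero, ite_self]; exact hasSum_zero
      · simp only [h0, zero_mul, mul_zero, ite_self]; exact hasSum_zero
    have p1 := (pin_le hc hJ xl xr r hL (-1)).1
    have p2 := (pin_le hc hJ xl xr r1 hL 0).1
    have hU : Summable fun h => US s t J S h * F S h := by
      refine Summable.of_nonneg_of_le (fun h => mul_nonneg (US_nonneg hJ S h) (hF0 S h))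
        (fun h => ?_) (summable_US hc hJ hxr)
      exact mul_le_of_le_one_right (US_nonneg hJ S h) (hF1 S hSF h)
    have dF : ∀ h h' : V → ℤ, (∀ v, v ∈ S → h v = h' v) → F S h = F S h' := by
      intro h h' hh
      simp only [hF]
      refine if_congr ?_ ?_ rfl
      · constructor
        · rintro ⟨a1, a2, a3⟩
          exact ⟨fun v hv => by rw [← hh v hv]; exact a1 v hv, a2, by rw [← hh xl a2]; exact a3⟩
        · rintro ⟨a1, a2, a3⟩
          exact ⟨fun v hv => by rw [hh v hv]; exact a1 v hv, a2, by rw [hh xl a2]; exact a3⟩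
      · congr 1
        refine Finset.sum_congr rfl fun v hv => ?_
        rw [hh v hv]
    have dS : ∀ (q : V → ℝ), ∀ h h' : V → ℤ, (∀ v, v ∉ S → h v = h' v) →
        ∑ v ∈ Sᶜ, q v * ((h v : ℝ) + 1) = ∑ v ∈ Sᶜ, q v * ((h' v : ℝ) + 1) := by
      intro q h h' hh
      refine Finset.sum_congr rfl fun v hv => ?_
      rw [hh v (Finset.mem_compl.1 hv)]
    have dG1 : ∀ h h' : V → ℤ, (∀ v, v ∉ S → h v = h' v) → G1 S h = G1 S h' := by
      intro h h' hh
      simp only [hG1]
      rw [hh xr hxr, dS r h h' hh]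
    have dG2 : ∀ h h' : V → ℤ, (∀ v, v ∉ S → h v = h' v) → G2 S h = G2 S h' := by
      intro h h' hh
      simp only [hG2]
      rw [hh xr hxr, dS r1 h h' hh]
    -- pins on `S` and its neighbours
    have hiff : ∀ h : V → ℤ, ((∀ v ∈ S, h v = 0) ∧ ∀ v, Bd s t (px xl) S v → h v = 0) ↔
        ∀ v ∈ nb s t S, h v = 0 := by
      intro h
      constructor
      · rintro ⟨h1, h2⟩ v hv
        by_cases hvS : v ∈ S
        · exact h1 v hvS
        · rcases mem_nb.1 hv with h3 | h3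
          · exact absurd h3 hvS
          · exact h2 v ⟨hvS, Or.inr h3⟩
      · intro h1
        refine ⟨fun v hv => h1 v (mem_nb.2 (Or.inl hv)), fun v hv => ?_⟩
        rcases hv.2 with ⟨y, rfl⟩ | h3
        · exact absurd hxl hv.1
        · exact h1 v (mem_nb.2 (Or.inr h3))
    -- the exponent on configurations which vanish on `S`
    have ex0 : ∀ (q : V → ℝ) (h : V → ℤ), (∀ v ∈ S, h v = 0) →
        ∑ v ∈ Sᶜ, q v * ((h v : ℝ) + 1) = ∑ v ∈ Sᶜ, q v + ∑ v, q v * (h v : ℝ) := by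
      intro q h hS0
      rw [← Finset.sum_add_sum_compl S fun v => q v * (h v : ℝ)]
      have e1 : ∑ v ∈ S, q v * (h v : ℝ) = 0 := Finset.sum_eq_zero fun v hv => by
        rw [hS0 v hv, Int.cast_zero, mul_zero]
      rw [e1, zero_add, ← Finset.sum_add_distrib]
      exact Finset.sum_congr rfl fun v _ => by ring
    have pin : ∀ (q : V → ℝ) (k : ℤ), (∑' h : V → ℤ, if (∀ v ∈ S, h v = 0) ∧
        ∀ v, Bd s t (px xl) S v → h v = 0 then
        W (grd s t) J h * (if h xr = k then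
          Real.exp (∑ v ∈ Sᶜ, q v * ((h v : ℝ) + 1)) else 0) else 0) =
        Real.exp (∑ v ∈ Sᶜ, q v) * Zp s t J xr (nb s t S) 0 k q := by
      intro q k
      unfold Zp
      rw [← tsum_mul_left]
      refine tsum_congr fun h => ?_
      by_cases c1 : ∀ v ∈ nb s t S, h v = 0
      · have c3 := (hiff h).2 c1
        rw [if_pos c3]
        by_cases c2 : h xr = k
        · rw [if_pos c2, if_pos ⟨c1, c2⟩, ex0 q h c3.1, Real.exp_add]
          ring
        · rw [if_neg c2, if_neg fun h' => c2 h'.2, mul_zero, mul_zero]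
      · rw [if_neg fun h' => c1 ((hiff h).1 h'), if_neg fun h' => c1 h'.1, mul_zero]
    have sV : ∀ (q : V → ℝ) (k : ℤ), (Summable fun h : V → ℤ => if (∀ v ∈ S, h v = 0) ∧
        ∀ v, Bd s t (px xl) S v → h v = 0 then
        W (grd s t) J h * (if h xr = k then Real.exp (∑ v, q v * (h v : ℝ)) else 0) else 0) →
        Summable fun h : V → ℤ => if (∀ v ∈ S, h v = 0) ∧
        ∀ v, Bd s t (px xl) S v → h v = 0 then
        W (grd s t) J h * (if h xr = k then
          Real.exp (∑ v ∈ Sᶜ, q v * ((h v : ℝ) + 1)) else 0) else 0 := by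
      intro q k hs
      refine (hs.mul_left (Real.exp (∑ v ∈ Sᶜ, q v))).congr fun h => ?_
      by_cases c1 : (∀ v ∈ S, h v = 0) ∧ ∀ v, Bd s t (px xl) S v → h v = 0
      · rw [if_pos c1, if_pos c1, ex0 q h c1.1, Real.exp_add]
        split_ifs <;> ring
      · rw [if_neg c1, if_neg c1, mul_zero]
    have m1 := markovF hJ hL (hF0 S) (hG10 S) dF dG1 hU (sV r (-1) p1)
    have m2 := markovF hJ hL (hF0 S) (hG20 S) dF dG2 hU (sV r1 0 p2)
    refine ⟨(_, _), fun _ => ⟨m1, m2, ?_⟩⟩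
    rw [pin r (-1), pin r1 0]
    have hsh := Zp_shift (s := s) (t := t) J xr (nb s t S) 0 (-1) 1 r
    simp only [Int.cast_one, mul_one, zero_add, neg_add_cancel] at hsh
    -- the key inequality
    set Ct : E → Prop := fun e => s e ∈ S ∨ t e ∈ S with hCt
    have cS : ∀ v ∈ S, Relation.ReflTransGen (stC s t fun e => s e ∈ S ∧ t e ∈ S) xl v := by
      intro v hv
      obtain ⟨x, ⟨-, y, rfl⟩, -, h3⟩ := Cn_single.1 (hL v hv)
      refine Relation.ReflTransGen.mono (fun a b hab => ?_) _ _ h3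
      obtain ⟨⟨e, he⟩, ha, hb⟩ := hab
      refine ⟨e, ?_, he⟩
      rcases he with ⟨rfl, rfl⟩ | ⟨rfl, rfl⟩
      · exact ⟨ha, hb⟩
      · exact ⟨hb, ha⟩
    have cnb : ∀ v ∈ nb s t S, Relation.ReflTransGen (stC s t Ct) xl v := by
      intro v hv
      have c4 : ∀ v ∈ S, Relation.ReflTransGen (stC s t Ct) xl v := fun v hv =>
        Relation.ReflTransGen.mono (fun a b hab => by
          obtain ⟨e, he, h3⟩ := hab
          exact ⟨e, Or.inl he.1, h3⟩) xl v (cS v hv)
      rcases mem_nb.1 hv with h1 | ⟨u, hu, e, he⟩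
      · exact c4 v h1
      · refine (c4 u hu).tail ⟨e, ?_, he⟩
        rcases he with ⟨rfl, -⟩ | ⟨-, rfl⟩
        · exact Or.inl hu
        · exact Or.inr hu
    have inb : ∀ e, Ct e → s e ∈ nb s t S ∧ t e ∈ nb s t S := by
      rintro e (he | he)
      · exact ⟨mem_nb.2 (Or.inl he), mem_nb.2 (Or.inr ⟨_, he, e, Or.inl ⟨rfl, rfl⟩⟩)⟩
      · exact ⟨mem_nb.2 (Or.inr ⟨_, he, e, Or.inr ⟨rfl, rfl⟩⟩), mem_nb.2 (Or.inl he)⟩
    have hkc := hK S (offC J Ct) hxl hxr hST
      (fun e => ⟨offC_nonneg hJ Ct e, offC_le hJ Ct e⟩)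
      (fun e h1 h2 => by
        unfold offC
        rw [if_neg]
        rintro (h3 | h3)
        · exact h1 h3
        · exact h2 h3)
      (fun v hv => Relation.ReflTransGen.mono (fun a b hab => by
        obtain ⟨e, he, h3⟩ := hab
        refine ⟨e, ⟨?_, he⟩, h3⟩
        unfold offC
        rw [if_pos (Or.inl he.1)]) xl v (cS v hv))
    have z4 : ∀ (p q : ℤ) (r : V → ℝ), cC J Ct * Zt s t (offC J Ct) xl xr r p q =
        cC (offC J Ct) Ct * Zp s t J xr (nb s t S) p q r := fun p q r =>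
      Zp_gen (C := Ct) (C' := Ct) (mem_nb.2 (Or.inl hxl)) inb
        (fun e he => by unfold offC; rw [if_pos he])
        (fun e => by unfold offC; split_ifs <;> rfl) cnb xr p q r
    have pT := cC_pos hJ Ct
    have pT2 := cC_pos (offC_nonneg hJ Ct) Ct
    have hkp : Zp s t J xr (nb s t S) 1 0 r ≤
        M * (Real.exp (∑ v, r1 v) * Zp s t J xr (nb s t S) 0 0 r1) := by
      have h5 := mul_le_mul_of_nonneg_left hkc pT.le
      have e5 : cC J Ct * (M * (Real.exp (∑ v, r1 v) * Zt s t (offC J Ct) xl xr r1 0 0)) =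
          M * (Real.exp (∑ v, r1 v) * (cC J Ct * Zt s t (offC J Ct) xl xr r1 0 0)) := by ring
      rw [e5, z4, z4] at h5
      have h6 : cC (offC J Ct) Ct * Zp s t J xr (nb s t S) 1 0 r ≤ cC (offC J Ct) Ct *
          (M * (Real.exp (∑ v, r1 v) * Zp s t J xr (nb s t S) 0 0 r1)) := by linarith
      exact le_of_mul_le_mul_left h6 pT2
    -- remove the factor of the explored part
    have hrS : ∑ v ∈ S, r1 v = ∑ v ∈ S, r v :=
      Finset.sum_congr rfl fun v hv => hr1 v (hST v hv)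
    have hkp2 : Real.exp (∑ v ∈ Sᶜ, r v) * Zp s t J xr (nb s t S) 0 (-1) r ≤
        M * (Real.exp (∑ v ∈ Sᶜ, r1 v) * Zp s t J xr (nb s t S) 0 0 r1) := by
      rw [hsh, ← Finset.sum_add_sum_compl S r, ← Finset.sum_add_sum_compl S r1, hrS,
        Real.exp_add, Real.exp_add] at hkp
      have e7 : Real.exp (∑ v ∈ S, r v) *
          (Real.exp (∑ v ∈ Sᶜ, r v) * Zp s t J xr (nb s t S) 0 (-1) r) ≤
          Real.exp (∑ v ∈ S, r v) *
          (M * (Real.exp (∑ v ∈ Sᶜ, r1 v) * Zp s t J xr (nb s t S) 0 0 r1)) := by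
        refine le_trans (le_of_eq ?_) (hkp.trans (le_of_eq ?_)) <;> ring
      exact le_of_mul_le_mul_left e7 (Real.exp_pos _)
    have hc0 : 0 ≤ (W (grd s t) J 0)⁻¹ * ∑' h, US s t J S h * F S h :=
      mul_nonneg (inv_nonneg.2 (W_nonneg hJ _)) (tsum_nonneg fun h =>
        mul_nonneg (US_nonneg hJ S h) (hF0 S h))
    have h9 := mul_le_mul_of_nonneg_left hkp2 hc0
    refine le_trans (le_of_eq ?_) (h9.trans (le_of_eq ?_)) <;> ring
  choose m hm using key
  have h1 := hasSum_sum (s := Fam) (f := fun S (h : V → ℤ) =>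
    if Ex s t (px xl) h = S then W (grd s t) J h * (F S h * G1 S h) else 0)
    (a := fun S => (m S).1) fun S hS => (hm S hS).1
  have h2 := hasSum_sum (s := Fam) (f := fun S (h : V → ℤ) =>
    if Ex s t (px xl) h = S then W (grd s t) J h * (F S h * G2 S h) else 0)
    (a := fun S => (m S).2) fun S hS => (hm S hS).2.1
  -- the left hand side
  have hL : (∑' h : V → ℤ, if (h xl = 0 ∧ h xr = 0) ∧ GoodT s t xl xr T h then
      W (grd s t) J h * Real.exp (∑ v, r v * (h v : ℝ)) else 0) ≤ ∑ S ∈ Fam, (m S).1 := by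
    have key2 : ∀ f : (V → ℤ) → ℝ, ∑' h : V → ℤ, f (h + fun _ : V => (1 : ℤ)) = ∑' h, f h :=
      fun f => (Equiv.addRight (fun _ : V => (1 : ℤ))).tsum_eq f
    rw [← key2, ← h1.tsum_eq]
    have hle : ∀ h : V → ℤ, (if ((h + fun _ => 1 : V → ℤ) xl = 0 ∧
        (h + fun _ => 1 : V → ℤ) xr = 0) ∧ GoodT s t xl xr T (h + fun _ => 1) then
        W (grd s t) J (h + fun _ => 1) *
          Real.exp (∑ v, r v * (((h + fun _ => 1 : V → ℤ) v : ℤ) : ℝ)) else 0) ≤
        ∑ S ∈ Fam, (if Ex s t (px xl) h = S then W (grd s t) J h * (F S h * G1 S h) else 0) := by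
      intro h
      rw [Finset.sum_ite_eq]
      by_cases hg : ((h + fun _ => 1 : V → ℤ) xl = 0 ∧
        (h + fun _ => 1 : V → ℤ) xr = 0) ∧ GoodT s t xl xr T (h + fun _ => 1)
      · rw [if_pos hg, W_add_const]
        obtain ⟨⟨g1, g2⟩, S0, g3, g4, g4', g5, g6⟩ := hg
        simp only [Pi.add_apply] at g1 g2 g5 g6
        have hsub : Ex s t (px xl) h ⊆ S0 := Ex_sub g3 fun u hu v hv huv => by
          have := g6 u hu v hv huv
          omega
        have hS : Ex s t (px xl) h ∈ Fam := by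
          rw [hFam, Finset.mem_filter]
          exact ⟨Finset.mem_univ _, fun h' => g4 (hsub h'), fun v hv => g4' v (hsub hv)⟩
        rw [if_pos hS]
        refine mul_le_mul_of_nonneg_left ?_ (W_nonneg hJ h)
        have c1 : (∀ v ∈ Ex s t (px xl) h, h v < 0) ∧
            (xl ∈ Ex s t (px xl) h ∧ h xl = -1) := by
          refine ⟨fun v hv => ?_, ?_, by omega⟩
          · have := g5 v (hsub hv)
            omega
          · rw [mem_Ex]
            exact Cn_start ⟨(), rfl⟩ (by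
              show h xl ≠ 0
              omega)
        have c2 : h xr = -1 := by omega
        simp only [hF, hG1]
        rw [if_pos c1, if_pos c2, ← Real.exp_add, Finset.sum_add_sum_compl]
        apply Real.exp_le_exp.2
        refine Finset.sum_le_sum fun v _ => ?_
        have e3 : (((h + fun _ => 1 : V → ℤ) v : ℤ) : ℝ) = (h v : ℝ) + 1 := by
          simp only [Pi.add_apply]
          push_cast
          ring
        rw [e3]
      · rw [if_neg hg]
        split_ifs
        · exact mul_nonneg (W_nonneg hJ _) (mul_nonneg (hF0 _ _) (hG10 _ _))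
        · exact le_rfl
    refine Summable.tsum_le_tsum hle (Summable.of_nonneg_of_le (fun h => ?_) hle h1.summable)
      h1.summable
    split_ifs
    · exact mul_nonneg (W_nonneg hJ _) (Real.exp_pos _).le
    · exact le_rfl
  -- the right hand side
  have hR : ∑ S ∈ Fam, (m S).2 ≤ Zt s t J xl xr r1 0 1 := by
    have hsh := Zt_shift (s := s) (t := t) J xl xr r1 (-1) 0 1
    simp only [Int.cast_one, mul_one, zero_add, neg_add_cancel] at hsh
    rw [hsh, ← h2.tsum_eq]
    unfold Zt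
    rw [← tsum_mul_left]
    have hle : ∀ h : V → ℤ, ∑ S ∈ Fam, (if Ex s t (px xl) h = S then
        W (grd s t) J h * (F S h * G2 S h) else 0) ≤
        Real.exp (∑ v, r1 v) * (if h xl = -1 ∧ h xr = 0 then W (grd s t) J h *
          Real.exp (∑ v, r1 v * (h v : ℝ)) else 0) := by
      intro h
      rw [Finset.sum_ite_eq]
      by_cases hh : h xl = -1 ∧ h xr = 0
      · rw [if_pos hh]
        split_ifs with hSF
        · have hST := (Finset.mem_filter.1 hSF).2.2
          have h3 : F (Ex s t (px xl) h) h * G2 (Ex s t (px xl) h) h ≤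
              Real.exp (∑ v, r1 v) * Real.exp (∑ v, r1 v * (h v : ℝ)) := by
            simp only [hF, hG2]
            rw [if_pos hh.2]
            split_ifs
            · rw [← Real.exp_add, ← Real.exp_add, ← Finset.sum_add_distrib]
              apply Real.exp_le_exp.2
              have e4 : ∑ v ∈ Ex s t (px xl) h, r v * ((h v : ℝ) + 1) =
                  ∑ v ∈ Ex s t (px xl) h, r1 v * ((h v : ℝ) + 1) :=
                Finset.sum_congr rfl fun v hv => by rw [hr1 v (hST v hv)]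
              rw [e4, Finset.sum_add_sum_compl]
              exact le_of_eq (Finset.sum_congr rfl fun v _ => by ring)
            · rw [zero_mul]
              exact (mul_pos (Real.exp_pos _) (Real.exp_pos _)).le
          refine (mul_le_mul_of_nonneg_left h3 (W_nonneg hJ h)).trans (le_of_eq ?_)
          ring
        · exact mul_nonneg (Real.exp_pos _).le
            (mul_nonneg (W_nonneg hJ h) (Real.exp_pos _).le)
      · rw [if_neg hh, mul_zero]
        split_ifs
        · by_cases h3 : h xr = 0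
          · have h4 : F (Ex s t (px xl) h) h = 0 := by
              simp only [hF]
              rw [if_neg]
              rintro ⟨-, -, h5⟩
              exact hh ⟨h5, h3⟩
            rw [h4]
            simp
          · have h4 : G2 (Ex s t (px xl) h) h = 0 := by
              simp only [hG2]
              rw [if_neg h3]
            rw [h4]
            simp
        · exact le_rfl
    refine Summable.tsum_le_tsum hle h2.summable ?_
    have hs := summable_tilt2 hc hJ xl r1 (fun h => h xl = 0 ∧ h xr = 1) fun h hh => hh.1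
    have hs2 := (Equiv.addRight (fun _ : V => (1 : ℤ))).summable_iff.2 hs
    refine hs2.congr fun h => ?_
    show (if (h + fun _ => 1 : V → ℤ) xl = 0 ∧ (h + fun _ => 1 : V → ℤ) xr = 1 then
      W (grd s t) J (h + fun _ => 1) *
        Real.exp (∑ v, r1 v * (((h + fun _ => 1 : V → ℤ) v : ℤ) : ℝ)) else 0) = _
    rw [W_add_const]
    have e1 : ∑ v, r1 v * (((h + fun _ => 1 : V → ℤ) v : ℤ) : ℝ) = ∑ v, r1 v +
        ∑ v, r1 v * (h v : ℝ) := by
      rw [← Finset.sum_add_distrib]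
      refine Finset.sum_congr rfl fun v _ => ?_
      simp only [Pi.add_apply]
      push_cast
      ring
    rw [e1, Real.exp_add]
    by_cases c : h xl = -1 ∧ h xr = 0
    · rw [if_pos c, if_pos]
      · ring
      · simp only [Pi.add_apply]
        omega
    · rw [if_neg c, if_neg, mul_zero]
      simp only [Pi.add_apply]
      omega
  calc _ ≤ ∑ S ∈ Fam, (m S).1 := hL
    _ ≤ ∑ S ∈ Fam, M * (m S).2 := Finset.sum_le_sum fun S hS => (hm S hS).2.2
    _ = M * ∑ S ∈ Fam, (m S).2 := (Finset.mul_sum _ _ _).symm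
    _ ≤ _ := mul_le_mul_of_nonneg_left hR hM

end base

section amp

variable {V E : Type} [Fintype V] [Fintype E] {s t : E → V}

/-- the cluster of `{h ≤ 0}` of the left lip meets the right lip or `T` -/
def HitT (s t : E → V) (xl xr : V) (T : Set V) (h : V → ℤ) : Prop :=
  ∃ y, (y = xr ∨ y ∈ T) ∧ LJ s t xl y h

omit [Fintype V] [Fintype E] in
lemma HitT_dbl {xl xr : V} {T : Set V} {h : V → ℤ} {g : E → ℤ}
    (h1 : HitT (s2 s) (t2 t) (Sum.inl xl) (Sum.inl xr) (Sum.inl '' T) (Sum.elim h g)) :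
    HitT s t xl xr T h := by
  obtain ⟨y, hy, h2⟩ := h1
  rcases hy with rfl | ⟨v, hv, rfl⟩
  · exact ⟨xr, Or.inl rfl, (LJ_of_dbl h2).1 xr rfl⟩
  · exact ⟨v, Or.inr hv, (LJ_of_dbl h2).1 v rfl⟩

open Classical in
omit [Fintype E] in
/-- the cluster of `{h ≤ 0}` -/
lemma goodT_of {xl xr : V} {T : Set V} {h : V → ℤ} (h0 : h xl = 0) (h1 : ¬ HitT s t xl xr T h)
    (h2 : ∀ e, |grd s t h e| ≤ 1) : GoodT s t xl xr T h := by
  have hle : ∀ v, LJ s t xl v h → h v ≤ 0 := by
    intro v hv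
    rcases Relation.ReflTransGen.cases_tail hv with rfl | ⟨w, -, hw⟩
    · exact h0.le
    · exact hw.2.1
  refine ⟨Finset.univ.filter fun v => LJ s t xl v h, ?_, ?_, ?_, ?_, ?_⟩
  · rw [Finset.mem_filter]
    exact ⟨Finset.mem_univ _, Relation.ReflTransGen.refl⟩
  · rw [Finset.mem_filter]
    exact fun h3 => h1 ⟨xr, Or.inl rfl, h3.2⟩
  · intro v hv hT
    rw [Finset.mem_filter] at hv
    exact h1 ⟨v, Or.inr hT, hv.2⟩
  · intro v hv
    exact hle v (Finset.mem_filter.1 hv).2
  · intro u hu v hv huv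
    have hu' := (Finset.mem_filter.1 hu).2
    have hu0 := hle u hu'
    have hv1 : 1 ≤ h v := by
      by_contra h5
      apply hv
      rw [Finset.mem_filter]
      exact ⟨Finset.mem_univ _, Relation.ReflTransGen.tail hu' ⟨hu0, by omega, huv⟩⟩
    obtain ⟨e, he⟩ := huv
    have h6 : |h (t e) - h (s e)| ≤ 1 := h2 e
    rw [abs_le] at h6
    rcases he with ⟨rfl, rfl⟩ | ⟨rfl, rfl⟩ <;> omega

open Classical in
/-- summand of the left side with the truncated kernels -/
noncomputable def Fk (k : ℕ) (s t : E → V) (J : E → ℝ) (xl xr : V) (T : Set V) (r : V → ℝ)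
    (h : V → ℤ) : ℝ :=
  if (h xl = 0 ∧ h xr = 0) ∧ ¬ HitT s t xl xr T h then
    (∏ e, kt k (J e) (grd s t h e)) * Real.exp (∑ v, r v * (h v : ℝ)) else 0

/-- left side with the truncated kernels -/
noncomputable def Lk (k : ℕ) (s t : E → V) (J : E → ℝ) (xl xr : V) (T : Set V) (r : V → ℝ) : ℝ :=
  ∑' h : V → ℤ, Fk k s t J xl xr T r h

lemma Fk_nonneg {J : E → ℝ} (hJ : ∀ e, 0 ≤ J e) (k : ℕ) (xl xr : V) (T : Set V) (r : V → ℝ)
    (h : V → ℤ) : 0 ≤ Fk k s t J xl xr T r h := by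
  unfold Fk
  split_ifs
  · exact mul_nonneg (Finset.prod_nonneg fun e _ => kt_nonneg k (hJ e) _) (Real.exp_pos _).le
  · exact le_rfl

lemma Lk_summable (hc : Conn s t) {J : E → ℝ} (hJ : ∀ e, 0 ≤ J e) (k : ℕ) (xl xr : V)
    (T : Set V) (r : V → ℝ) : Summable (Fk k s t J xl xr T r) := by
  classical
  refine Summable.of_nonneg_of_le (Fk_nonneg hJ k xl xr T r) (fun h => ?_)
    (summable_tilt2 hc hJ xl r (fun h => (h xl = 0 ∧ h xr = 0) ∧ ¬ HitT s t xl xr T h)
      fun h hh => hh.1.1)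
  unfold Fk
  split_ifs
  · refine mul_le_mul_of_nonneg_right ?_ (Real.exp_pos _).le
    exact Finset.prod_le_prod (fun e _ => kt_nonneg k (hJ e) _) fun e _ => kt_le k (hJ e) _
  · exact le_rfl

/-- one more halving decreases the left side -/
lemma Lk_dbl (hc : Conn s t) {J : E → ℝ} (hJ : ∀ e, 0 ≤ J e) (k : ℕ) (xl xr : V) (T : Set V)
    (r : V → ℝ) :
    Lk (k + 1) s t J xl xr T r ≤
      Lk k (s2 s) (t2 t) (J2 J) (Sum.inl xl) (Sum.inl xr) (Sum.inl '' T) (Sum.elim r 0) := by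
  have hs : Summable (Fk k (s2 s) (t2 t) (J2 J) (Sum.inl xl) (Sum.inl xr) (Sum.inl '' T)
      (Sum.elim r 0)) :=
    Lk_summable (conn2 hc) (J2_nonneg hJ) k (Sum.inl xl) (Sum.inl xr) _ (Sum.elim r 0)
  have hF0 := Fk_nonneg (s := s2 s) (t := t2 t) (J2_nonneg hJ) k (Sum.inl xl) (Sum.inl xr)
    (Sum.inl '' T) (Sum.elim r 0)
  have hpt : ∀ (h : V → ℤ), ((h xl = 0 ∧ h xr = 0) ∧ ¬ HitT s t xl xr T h) → ∀ g : E → ℤ,
      Fk k (s2 s) (t2 t) (J2 J) (Sum.inl xl) (Sum.inl xr) (Sum.inl '' T) (Sum.elim r 0)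
        (Sum.elim h g) =
      (∏ x, kt k (J2 J x) (grd (s2 s) (t2 t) (Sum.elim h g) x)) *
        Real.exp (∑ v, r v * (h v : ℝ)) := by
    intro h h1 g
    have h4 : ((Sum.elim h g : V ⊕ E → ℤ) (Sum.inl xl) = 0 ∧
        (Sum.elim h g : V ⊕ E → ℤ) (Sum.inl xr) = 0) ∧
        ¬ HitT (s2 s) (t2 t) (Sum.inl xl) (Sum.inl xr) (Sum.inl '' T) (Sum.elim h g) :=
      ⟨h1.1, fun h3 => h1.2 (HitT_dbl h3)⟩
    unfold Fk
    rw [if_pos h4, sum_elim]
  unfold Lk
  generalize Fk k (s2 s) (t2 t) (J2 J) (Sum.inl xl) (Sum.inl xr) (Sum.inl '' T)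
    (Sum.elim r 0) = FF at *
  have hs2 : Summable fun x : (V → ℤ) × (E → ℤ) => FF ((eb V E).symm x) :=
    (eb V E).symm.summable_iff.2 hs
  rw [← (eb V E).symm.tsum_eq FF, hs2.tsum_prod]
  refine Summable.tsum_le_tsum (fun h => ?_) (Lk_summable hc hJ (k + 1) xl xr T r) hs2.prod
  by_cases h1 : (h xl = 0 ∧ h xr = 0) ∧ ¬ HitT s t xl xr T h
  · have h2 := (hasSum_kt_dbl (s := s) (t := t) k hJ h).mul_right
      (Real.exp (∑ v, r v * (h v : ℝ)))
    have h3 : Fk (k + 1) s t J xl xr T r h = (∏ e, kt (k + 1) (J e) (grd s t h e)) *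
        Real.exp (∑ v, r v * (h v : ℝ)) := by
      unfold Fk
      rw [if_pos h1]
    rw [h3, ← h2.tsum_eq]
    exact le_of_eq (tsum_congr fun g => (hpt h h1 g).symm)
  · have h3 : Fk (k + 1) s t J xl xr T r h = 0 := by
      unfold Fk
      rw [if_neg h1]
    rw [h3]
    exact tsum_nonneg fun g => hF0 _

/-- the inequality with truncated kernels -/
theorem ampS_kt (k : ℕ) : ∀ {V E : Type} [Fintype V] [Fintype E] {s t : E → V} (_ : Conn s t)
    {J : E → ℝ} (_ : ∀ e, 0 ≤ J e) {xl xr : V} {T : Set V} {r r1 : V → ℝ} {M : ℝ} (_ : 0 ≤ M)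
    (_ : ∀ v, v ∉ T → 0 ≤ r v) (_ : ∀ v, v ∉ T → r1 v = r v)
    (_ : KeyC s t J xl xr T r r1 M),
    Lk k s t J xl xr T r ≤ M * Zt s t J xl xr r1 0 1 := by
  induction k with
  | zero =>
    intro V E _ _ s t hc J hJ xl xr T r r1 M hM hr hr1 hK
    classical
    refine le_trans ?_ (ampS0 hc hJ hM hr hr1 hK)
    refine Summable.tsum_le_tsum (fun h => ?_) (Lk_summable hc hJ 0 xl xr T r)
      (summable_tilt2 hc hJ xl r (fun h => (h xl = 0 ∧ h xr = 0) ∧ GoodT s t xl xr T h)
        fun h hh => hh.1.1)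
    unfold Fk
    by_cases h1 : (h xl = 0 ∧ h xr = 0) ∧ ¬ HitT s t xl xr T h
    · rw [if_pos h1]
      by_cases h2 : ∀ e, |grd s t h e| ≤ 1
      · rw [if_pos ⟨h1.1, goodT_of h1.1.1 h1.2 h2⟩]
        refine mul_le_mul_of_nonneg_right ?_ (Real.exp_pos _).le
        exact Finset.prod_le_prod (fun e _ => kt_nonneg 0 (hJ e) _) fun e _ => kt_le 0 (hJ e) _
      · rw [not_forall] at h2
        obtain ⟨e, he⟩ := h2
        have h3 : ∏ e, kt 0 (J e) (grd s t h e) = 0 := by
          refine Finset.prod_eq_zero (Finset.mem_univ e) ?_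
          simp only [T1.H897.kt]
          rw [if_neg he]
        rw [h3, zero_mul]
        split_ifs
        · exact mul_nonneg (W_nonneg hJ _) (Real.exp_pos _).le
        · exact le_rfl
    · rw [if_neg h1]
      split_ifs
      · exact mul_nonneg (W_nonneg hJ _) (Real.exp_pos _).le
      · exact le_rfl
  | succ k ih =>
    intro V E _ _ s t hc J hJ xl xr T r r1 M hM hr hr1 hK
    have h1 := ih (s := s2 s) (t := t2 t) (conn2 hc) (J2_nonneg hJ) hM (by
        rintro (v | e) hv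
        · exact hr v fun h' => hv ⟨v, h', rfl⟩
        · exact le_rfl) (by
        rintro (v | e) hv
        · exact hr1 v fun h' => hv ⟨v, h', rfl⟩
        · rfl) hK.dbl
    have h2 := Zt_dblK (s := s) (t := t) (K := J2 J) (J2_nonneg hJ) xl xr r1 0 1
    have h3 : addK (J2 J) = J := by
      funext e
      unfold addK J2
      ring
    rw [h3] at h2
    rw [h2] at h1
    exact (Lk_dbl hc hJ k xl xr T r).trans h1

open Classical in
/-- **Exploration with the last line kept**, coarse form. -/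
theorem ampS (hc : Conn s t) {J : E → ℝ} (hJ : ∀ e, 0 ≤ J e) {xl xr : V} {T : Set V}
    {r r1 : V → ℝ} {M : ℝ} (hM : 0 ≤ M) (hr : ∀ v, v ∉ T → 0 ≤ r v)
    (hr1 : ∀ v, v ∉ T → r1 v = r v) (hK : KeyP s t J xl xr T r r1 M) :
    (∑' h : V → ℤ, if (h xl = 0 ∧ h xr = 0) ∧ ¬ HitT s t xl xr T h then
      W (grd s t) J h * Real.exp (∑ v, r v * (h v : ℝ)) else 0) ≤
    M * Zt s t J xl xr r1 0 1 := by
  refine Real.tsum_le_of_sum_le (fun h => ?_) fun I => ?_
  · split_ifs
    · exact mul_nonneg (W_nonneg hJ _) (Real.exp_pos _).le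
    · exact le_rfl
  have h1 : Tendsto (fun k : ℕ => ∑ h ∈ I, Fk k s t J xl xr T r h) atTop
      (𝓝 (∑ h ∈ I, if (h xl = 0 ∧ h xr = 0) ∧ ¬ HitT s t xl xr T h then
      W (grd s t) J h * Real.exp (∑ v, r v * (h v : ℝ)) else 0)) := by
    refine tendsto_finsetSum _ fun h _ => ?_
    unfold Fk
    split_ifs
    · exact (tendsto_finsetProd _ fun e _ => kt_lim (hJ e) _).mul_const _
    · exact tendsto_const_nhds
  refine le_of_tendsto h1 (Eventually.of_forall fun k => ?_)
  refine le_trans ?_ (ampS_kt k hc hJ hM hr hr1 (KeyC.of_keyP hc hJ hM hK))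
  exact (Lk_summable hc hJ k xl xr T r).sum_le_tsum I fun h _ => Fk_nonneg hJ k xl xr T r h

end amp

end Vale.Agent.P159.T1.S.H802
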