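import Vale.Agent.P159.T1.D.H802.MainF

/-!
The product inequality on a finite graph for a general increasing event.
-/

open Filter Topology

namespace Vale.Agent.P159.T1.S.H802

open Vale.Agent.P159.H353 Vale.Agent.P159.T1.H934 Vale.Agent.P159.T1.D.H802
open Vale.Agent.P159.T1.H254 (adjS)
open Vale.Agent.P159.T1.H897 (fkg_prod_on)

variable {V E : Type} [Fintype V] [DecidableEq V] [Fintype E] {s t : E → V}

/-- **the product inequality** for the complement of the event `Ev` -/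
theorem mainEv (hc : Conn s t) {J : E → ℝ} (hJ : ∀ e, 0 ≤ J e) {xl xr : V} {ρ : V → ℝ}
    (hρ : ∀ v, 0 ≤ ρ v) {ι : Type} (I : Finset ι) (Bad : ι → Finset V → Prop)
    (A B Q : ι → Finset V) (ρA ρB : ι → V → ℝ) (F : Finset V)
    (h1 : ∀ i ∈ I, ∀ v, 0 ≤ ρA i v ∧ 0 ≤ ρB i v ∧ ρA i v + ρB i v ≤ ρ v)
    (hA : ∀ i ∈ I, ∀ v, v ∉ A i → ρA i v = 0) (hB : ∀ i ∈ I, ∀ v, v ∉ B i → ρB i v = 0)
    (hmono : ∀ i ∈ I, ∀ N N' : Finset V, N ⊆ N' → Bad i N → Bad i N')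
    (hsep : ∀ i ∈ I, ∀ N : Finset V, xl ∈ N → xr ∈ N → Bad i N → ∀ x ∈ A i, ∀ y ∈ B i,
      x ∉ N ∪ Q i → ¬ Relation.ReflTransGen (adjS s t (N ∪ Q i)) x y)
    {Ev : Finset V → Prop}
    (hcov : ∀ N : Finset V, xl ∈ N → xr ∈ N → Ev N →
      (∃ i ∈ I, Bad i N) ∨ ∃ f ∈ F, f ∈ N) {X : ℝ}
    (hamp : ZA s t J xl xr ρ (gI Ev) ≤ X) :
    Zt s t J xl xr ρ 0 0 *
        (∏ i ∈ I, max 0 (1 - ZQ s t J xl xr (Q i) (fun v => ρA i v - ρB i v) /
          ZQ s t J xl xr (Q i) (fun v => ρA i v + ρB i v))) *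
        (∏ f ∈ F, Z1 s t J xl xr f / Zt s t J xl xr 0 0 0) ≤ X := by
  classical
  have hp := ZA_one_pos hc hJ xl xr ρ
  have hp0 := ZA_one_pos hc hJ xl xr (0 : V → ℝ)
  -- the factors
  have f1 : ∏ i ∈ I, max 0 (1 - ZQ s t J xl xr (Q i) (fun v => ρA i v - ρB i v) /
      ZQ s t J xl xr (Q i) (fun v => ρA i v + ρB i v)) ≤
      ∏ i ∈ I, (ZA s t J xl xr ρ (gI (Bad i)) / ZA s t J xl xr ρ (fun _ => 1)) :=
    Finset.prod_le_prod (fun i _ => le_max_left _ _) fun i hi =>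
      arm_ratio hc hJ (h1 i hi) (hA i hi) (hB i hi) (hmono i hi) (hsep i hi)
  have f2 : ∏ f ∈ F, Z1 s t J xl xr f / Zt s t J xl xr 0 0 0 ≤
      ∏ f ∈ F, (ZA s t J xl xr ρ (kI f) / ZA s t J xl xr ρ (fun _ => 1)) := by
    have e : ∀ f, Z1 s t J xl xr f / Zt s t J xl xr 0 0 0 =
        ZA s t J xl xr 0 (kI f) / ZA s t J xl xr 0 (fun _ => 1) := by
      intro f
      rw [ZA_one]
      congr 1
      rw [ZA_eq]
      unfold Z1 wm kI
      refine tsum_congr fun h => ?_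
      by_cases c : h xl = 0 ∧ h xr = 0 <;> by_cases c2 : 1 ≤ h f <;> simp [c, c2]
    refine Finset.prod_le_prod (fun f _ => ?_) fun f _ => ?_
    · rw [e]
      exact div_nonneg (ZA_nonneg hJ xl xr 0 (kI_nonneg f)) hp0.le
    · rw [e]
      exact ZA_mono hc hJ xl xr (ρ := 0) hρ (kI_nonneg f) (kI_le_one f) (kI_mono f)
  -- FKG
  have hFK := fkg_prod_on (setLe_A0 xl xr) (μ := wm s t J ρ) (wm_nonneg hJ ρ)
    (summable_A0 hc hJ xl xr ρ) (by
      have h := hp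
      unfold ZA at h
      simpa only [mul_one] using h) (hol_wm (s := s) (t := t) hJ fun _ => le_rfl)
    (I.disjSum F) (f := Sum.elim (fun i => gI (Bad i)) kI) (by
      rintro (i | f) hx
      · exact gI_mono (hmono i (Finset.inl_mem_disjSum.1 hx))
      · exact kI_mono f) (by
      rintro (i | f) _ h
      · exact gI_nonneg _ _
      · exact kI_nonneg _ _) (by
      rintro (i | f) _ h
      · exact gI_le_one _ _
      · exact kI_le_one _ _)
  rw [Finset.prod_disjSum] at hFK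
  simp only [Finset.prod_disjSum, Sum.elim_inl, Sum.elim_inr] at hFK
  have e0 : ZA s t J xl xr ρ (fun _ => 1) = ∑' h : A0 xl xr, wm s t J ρ h := by
    unfold ZA
    simp only [mul_one]
  have hle : (∑' h : A0 xl xr, wm s t J ρ h * ((∏ i ∈ I, gI (Bad i) h) * ∏ f ∈ F, kI f h)) ≤
      ZA s t J xl xr ρ (gI Ev) := by
    have b0 : ∀ h : V → ℤ, 0 ≤ (∏ i ∈ I, gI (Bad i) h) * ∏ f ∈ F, kI f h := fun h =>
      mul_nonneg (Finset.prod_nonneg fun i _ => gI_nonneg _ _)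
        (Finset.prod_nonneg fun f _ => kI_nonneg _ _)
    have b1 : ∀ h : V → ℤ, (∏ i ∈ I, gI (Bad i) h) * ∏ f ∈ F, kI f h ≤ 1 := fun h =>
      mul_le_one₀ (Finset.prod_le_one (fun i _ => gI_nonneg _ _) fun i _ => gI_le_one _ _)
        (Finset.prod_nonneg fun f _ => kI_nonneg _ _)
        (Finset.prod_le_one (fun f _ => kI_nonneg _ _) fun f _ => kI_le_one _ _)
    refine (summable_A0_mul hc hJ xl xr ρ b0 b1).tsum_le_tsum (fun h => ?_)
      (summable_A0_mul hc hJ xl xr ρ (gI_nonneg _) (gI_le_one _))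
    refine mul_le_mul_of_nonneg_left ?_ (wm_nonneg hJ ρ _)
    by_cases c : Ev (Nh h.1)
    · have h0 : (∏ i ∈ I, gI (Bad i) h.1) * ∏ f ∈ F, kI f h.1 = 0 := by
        rcases hcov (Nh h.1) (mem_Nh.2 h.2.1.le) (mem_Nh.2 h.2.2.le) c with ⟨i, hi, hb⟩ |
          ⟨f, hf, hfN⟩
        · rw [Finset.prod_eq_zero hi, zero_mul]
          unfold gI
          rw [if_pos hb]
        · rw [Finset.prod_eq_zero hf, mul_zero]
          unfold kI
          rw [if_neg]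
          have := mem_Nh.1 hfN
          omega
      rw [h0]
      exact gI_nonneg _ _
    · have h2 : gI Ev h.1 = 1 := by
        unfold gI
        rw [if_neg c]
      rw [h2]
      exact b1 _
  have hz0 : 0 < Zt s t J xl xr 0 0 0 := by rw [← ZA_one]; exact hp0
  have hzρ : 0 < Zt s t J xl xr ρ 0 0 := by rw [← ZA_one]; exact hp
  have f3 : (∏ i ∈ I, (ZA s t J xl xr ρ (gI (Bad i)) / ZA s t J xl xr ρ (fun _ => 1))) *
      (∏ f ∈ F, (ZA s t J xl xr ρ (kI f) / ZA s t J xl xr ρ (fun _ => 1))) ≤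
      ZA s t J xl xr ρ (gI Ev) / Zt s t J xl xr ρ 0 0 := by
    rw [← ZA_one, e0]
    refine le_trans hFK ?_
    have hp' := hp
    rw [e0] at hp'
    exact div_le_div_of_nonneg_right hle hp'.le
  have g1 : 0 ≤ ∏ f ∈ F, Z1 s t J xl xr f / Zt s t J xl xr 0 0 0 := by
    refine Finset.prod_nonneg fun f _ => div_nonneg (tsum_nonneg fun h => ?_) hz0.le
    split_ifs
    · exact W_nonneg hJ _
    · exact le_rfl
  have g2 : 0 ≤ ∏ i ∈ I, (ZA s t J xl xr ρ (gI (Bad i)) / ZA s t J xl xr ρ (fun _ => 1)) :=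
    Finset.prod_nonneg fun i _ => div_nonneg (ZA_nonneg hJ xl xr ρ (gI_nonneg _)) hp.le
  have f4 := (mul_le_mul f1 f2 g1 g2).trans f3
  rw [le_div_iff₀ hzρ] at f4
  refine le_trans (le_of_eq ?_) (f4.trans hamp)
  ring

end Vale.Agent.P159.T1.S.H802
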