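import Vale.Agent.P159.T1.S.H802.Defs
import Vale.Agent.P159.T1.S.H802.MainG
import Vale.Agent.P159.T1.S.H802.AmpE

/-!
The statement `StmtSMain` of row S.AMP in the language of faces.
-/

open Filter Topology

namespace Vale.Agent.P159.T1.S.H802

open Vale.Agent.P159.T1.D Vale.Agent.P159.T1.H934 Vale.Agent.P159.T1.D.H802
open Vale.Agent.P159.T1.H254 (adjS)
open Vale.Agent.P159.T1.H897 (LJ lowS)
open Vale.Agent.P159.H353 (wI wI_anti wI_zero_pos wI_nonneg)

section faces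

variable {U : Finset Z2}

open Classical in
/-- the faces of a set of vertices -/
noncomputable def fc (U : Finset Z2) (N' : Finset (Vt U)) : Finset Z2 :=
  U.filter fun f => ∃ hf : f ∈ U, (Sum.inl ⟨f, hf⟩ : Vt U) ∈ N'

lemma mem_fc {N' : Finset (Vt U)} {f : Z2} :
    f ∈ fc U N' ↔ ∃ hf : f ∈ U, (Sum.inl ⟨f, hf⟩ : Vt U) ∈ N' := by
  unfold fc
  rw [Finset.mem_filter]
  exact ⟨fun h => h.2, fun h => ⟨h.1, h⟩⟩

lemma fc_sub {N' : Finset (Vt U)} : fc U N' ⊆ U := Finset.filter_subset _ _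

lemma inl_mem {N' : Finset (Vt U)} {f : {f : Z2 // f ∈ U}} :
    (Sum.inl f : Vt U) ∈ N' ↔ f.1 ∈ fc U N' := by
  rw [mem_fc]
  exact ⟨fun h => ⟨f.2, h⟩, fun ⟨_, h⟩ => h⟩

/-- a path of the graph from the upper outer face, in terms of faces -/
lemma path_key {X : Set (Vt U)} {v : Vt U}
    (hv : Relation.ReflTransGen (fun a b => (a ∈ X ∧ b ∈ X) ∧ adjG (sv U) (tv U) a b)
      (om U) v) :
    v = om U ∨ Jn U {f | ∀ hf : f ∈ U, (Sum.inl ⟨f, hf⟩ : Vt U) ∈ X} (upp U) (low U) ∨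
      ∃ f : {f : Z2 // f ∈ U}, v = Sum.inl f ∧
        Jn U {f | ∀ hf : f ∈ U, (Sum.inl ⟨f, hf⟩ : Vt U) ∈ X} (upp U) {f.1} := by
  induction hv with
  | refl => exact Or.inl rfl
  | @tail b c _ hbc ih =>
    obtain ⟨⟨hb, hc⟩, hadj⟩ := hbc
    rcases ih with rfl | h1 | ⟨f, rfl, a, ha, x, hx, ha', hp⟩
    · rcases adjG_cases hadj with ⟨f, g, h2, -⟩ | ⟨f, h2, -⟩ | ⟨f, h2, -⟩ | ⟨f, -, rfl, h3⟩ |
        ⟨f, h2, -⟩
      · unfold om at h2; cases h2
      · unfold om at h2; cases h2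
      · unfold om at h2; cases h2
      · exact Or.inr (Or.inr ⟨f, rfl, f.1, h3, f.1, rfl, ⟨f.2, fun _ => hc⟩,
          Relation.ReflTransGen.refl⟩)
      · exact absurd h2 om_ne_op
    · exact Or.inr (Or.inl h1)
    · have hx' : x = f.1 := hx
      subst hx'
      rcases adjG_cases hadj with ⟨f', g, h2, rfl, e, h3⟩ | ⟨f', -, rfl, -⟩ |
        ⟨f', h2, rfl, h3⟩ | ⟨f', h2, -⟩ | ⟨f', h2, -⟩
      · rw [Sum.inl.injEq] at h2
        subst h2
        refine Or.inr (Or.inr ⟨g, rfl, a, ha, g.1, rfl, ha', hp.tail ?_⟩)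
        exact ⟨⟨f.2, fun _ => hb⟩, ⟨g.2, fun _ => hc⟩, e, h3⟩
      · exact Or.inl rfl
      · rw [Sum.inl.injEq] at h2
        subst h2
        exact Or.inr (Or.inl ⟨a, ha, f.1, h3, ha', hp⟩)
      · unfold om at h2; cases h2
      · unfold op at h2; cases h2

lemma Jn_mono {X Y A B B' : Set Z2} (hX : ∀ f ∈ U, f ∈ X → f ∈ Y) (hB : B ⊆ B')
    (h : Jn U X A B) : Jn U Y A B' := by
  obtain ⟨a, ha, b, hb, ⟨h1, h2⟩, hp⟩ := h
  refine ⟨a, ha, b, hB hb, ⟨h1, hX a h1 h2⟩, ?_⟩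
  refine Relation.ReflTransGen.mono (fun x y hxy => ?_) _ _ hp
  exact ⟨⟨hxy.1.1, hX x hxy.1.1 hxy.1.2⟩, ⟨hxy.2.1.1, hX y hxy.2.1.1 hxy.2.1.2⟩, hxy.2.2⟩

/-- the faces along the upper part of the outer face are neighbours of it -/
lemma adj_om {f : {f : Z2 // f ∈ U}} (h : f.1 ∈ upp U) :
    adjG (sv U) (tv U) (om U) (Sum.inl f) := by
  obtain ⟨e, he, hj, h1⟩ := h
  rw [mem_sides] at he
  have hbd : e ∈ bd U := by
    rw [mem_bd]
    rcases he with he | he
    · left; rw [he]; exact f.2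
    · right; rw [he]; exact f.2
  have ho : ∀ g, g ∉ U → vx U e g = om U := fun g hg => by
    unfold vx om
    rw [dif_neg hg]
    simp [hj]
  have hi : ∀ g, g = f.1 → vx U e g = Sum.inl f := fun g hg => by
    subst hg
    unfold vx
    rw [dif_pos f.2]
  have h2 := adj_vx hbd
  rcases he with he | he
  · have h3 : rt e ∉ U := by
      rcases h1 with h1 | h1
      · exact absurd (he ▸ f.2) h1
      · exact h1
    rw [ho _ h3, hi _ he] at h2
    exact h2
  · have h3 : lf e ∉ U := by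
      rcases h1 with h1 | h1
      · exact h1
      · exact absurd (he ▸ f.2) h1
    rw [ho _ h3, hi _ he] at h2
    exact D.H802.adjG_symm h2

lemma adj_ff {f g : {f : Z2 // f ∈ U}}
    (h : ∃ e, (rt e = f.1 ∧ lf e = g.1) ∨ (rt e = g.1 ∧ lf e = f.1)) :
    adjG (sv U) (tv U) (Sum.inl f) (Sum.inl g) := by
  obtain ⟨e, he⟩ := h
  have hi : ∀ (x : {f : Z2 // f ∈ U}) (g : Z2), g = x.1 → vx U e g = Sum.inl x := by
    intro x g hg
    subst hg
    unfold vx
    rw [dif_pos x.2]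
  have hbd : e ∈ bd U := by
    rw [mem_bd]
    rcases he with ⟨h1, h2⟩ | ⟨h1, h2⟩
    · left; rw [h2]; exact g.2
    · left; rw [h2]; exact f.2
  have h2 := adj_vx hbd
  rcases he with ⟨h3, h4⟩ | ⟨h3, h4⟩
  · rw [hi f _ h3, hi g _ h4] at h2
    exact h2
  · rw [hi g _ h3, hi f _ h4] at h2
    exact D.H802.adjG_symm h2

/-- neighbours in terms of faces -/
lemma inl_mem_nb {N' : Finset (Vt U)} (h0 : om U ∈ N') (h1 : op U ∉ N')
    {f : {f : Z2 // f ∈ U}} :
    (Sum.inl f : Vt U) ∈ nb (sv U) (tv U) N' ↔ f.1 ∈ nbF U (fc U N') := by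
  classical
  unfold nbF
  rw [mem_nb, Finset.mem_filter]
  constructor
  · rintro (h | ⟨u, hu, hadj⟩)
    · exact ⟨f.2, Or.inl (inl_mem.1 h)⟩
    · refine ⟨f.2, ?_⟩
      rcases adjG_cases hadj with ⟨g, g', rfl, h2, e, h3⟩ | ⟨g, -, h2, -⟩ | ⟨g, -, h2, -⟩ |
        ⟨g, rfl, h2, h3⟩ | ⟨g, rfl, -, -⟩
      · rw [Sum.inl.injEq] at h2
        subst h2
        exact Or.inr (Or.inr ⟨g.1, inl_mem.1 hu, e, h3.symm⟩)
      · unfold om at h2; cases h2
      · unfold op at h2; cases h2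
      · rw [Sum.inl.injEq] at h2
        subst h2
        exact Or.inr (Or.inl h3)
      · exact absurd hu h1
  · rintro ⟨-, h | h | ⟨g, hg, h⟩⟩
    · exact Or.inl (inl_mem.2 h)
    · exact Or.inr ⟨om U, h0, adj_om h⟩
    · have hgU : g ∈ U := fc_sub hg
      refine Or.inr ⟨Sum.inl ⟨g, hgU⟩, inl_mem.2 hg, ?_⟩
      obtain ⟨e, he⟩ := h
      exact adj_ff (f := ⟨g, hgU⟩) (g := f) ⟨e, he.symm⟩

end faces

section sums

variable {U : Finset Z2}

/-- the heights on the graph with the value `p` on `N` and at the upper outer face -/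
def upN (U N : Finset Z2) (p : ℤ) (h : Z2 → ℤ) : Vt U → ℤ :=
  Sum.elim (fun f => if f.1 ∈ N then p else h f.1) (fun b => if b then p else 0)

lemma grd_upN {N : Finset Z2} (hN : N ⊆ U) (p : ℤ) (h : Z2 → ℤ)
    (hh : ∀ f, f ∉ U \ N → h f = 0) (e : Ed U) :
    upN U N p h (tv U e) - upN U N p h (sv U e) = dh h e.1 + secN U N p e.1 := by
  have key : ∀ f, upN U N p h (vx U e.1 f) =
      h f + (if f ∈ U \ N then 0 else vl N p e.1 f) := by
    intro f
    by_cases hf : f ∈ U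
    · by_cases hfN : f ∈ N
      · have h1 : f ∉ U \ N := fun h' => (Finset.mem_sdiff.1 h').2 hfN
        rw [if_neg h1, hh f h1]
        simp [vx, upN, vl, hf, hfN]
      · rw [if_pos (Finset.mem_sdiff.2 ⟨hf, hfN⟩)]
        simp [vx, upN, hf, hfN]
    · have hfN : f ∉ N := fun h' => hf (hN h')
      have h1 : f ∉ U \ N := fun h' => hf (Finset.mem_sdiff.1 h').1
      rw [if_neg h1, hh f h1]
      simp [vx, upN, vl, hf, hfN]
  unfold tv sv
  rw [key, key]
  unfold dh secN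
  ring

/-- the constant of the lost bonds -/
noncomputable def cN (b : ℝ) (U N : Finset Z2) (p : ℤ) : ℝ :=
  ∏ e ∈ bd U \ bd (U \ N), wI b (secN U N p e)

lemma W_upN (b : ℝ) {N : Finset Z2} (hN : N ⊆ U) (p : ℤ) (h : Z2 → ℤ)
    (hh : ∀ f, f ∉ U \ N → h f = 0) :
    W (grd (sv U) (tv U)) (fun _ => b) (upN U N p h) =
      cN b U N p * wt b (U \ N) (secN U N p) h := by
  have h1 : W (grd (sv U) (tv U)) (fun _ => b) (upN U N p h) =
      ∏ e ∈ bd U, wI b (dh h e + secN U N p e) := by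
    unfold W
    rw [← prod_ed]
    refine Finset.prod_congr rfl fun e _ => ?_
    show wI b (upN U N p h (tv U e) - upN U N p h (sv U e)) = _
    rw [grd_upN hN p h hh]
  rw [h1]
  unfold cN wt
  rw [← Finset.prod_sdiff (bd_mono (U := U) (Finset.sdiff_subset (t := N)))]
  congr 1
  refine Finset.prod_congr rfl fun e he => ?_
  rw [Finset.mem_sdiff, mem_bd (U := U \ N)] at he
  have h2 : h (lf e) = 0 := hh _ fun h' => he.2 (Or.inl h')
  have h3 : h (rt e) = 0 := hh _ fun h' => he.2 (Or.inr h')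
  unfold dh
  rw [h2, h3, sub_zero, zero_add]

lemma lin_upN {ρ : Z2 → ℝ} {N : Finset Z2} (hN : N ⊆ U) (p : ℤ) (h : Z2 → ℤ) :
    ∑ v, cg U ρ v * (upN U N p h v : ℝ) = (∑ f ∈ N, ρ f) * (p : ℝ) + ch (U \ N) ρ h := by
  rw [Fintype.sum_sum_type]
  simp only [cg, upN, Sum.elim_inl, Sum.elim_inr, zero_mul, Finset.sum_const_zero, add_zero]
  rw [Finset.sum_coe_sort U fun f => ρ f * (((if f ∈ N then p else h f : ℤ)) : ℝ)]
  unfold ch
  rw [← Finset.sum_sdiff hN, add_comm, Finset.sum_mul]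
  congr 1
  · refine Finset.sum_congr rfl fun f hf => ?_
    rw [if_pos hf]
  · refine Finset.sum_congr rfl fun f hf => ?_
    rw [if_neg (Finset.mem_sdiff.1 hf).2]

/-- pinned sums with the value `p` on `N` and the upper outer face -/
theorem Zp_eq (b : ℝ) {N' : Finset (Vt U)} (h0 : om U ∈ N') (h1 : op U ∉ N') (p : ℤ)
    {ρ : Z2 → ℝ} :
    Zp (sv U) (tv U) (fun _ => b) (op U) N' p 0 (cg U ρ) =
      cN b U (fc U N') p * Real.exp ((∑ f ∈ fc U N', ρ f) * (p : ℝ)) *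
        Zn b U (fc U N') p ρ := by
  classical
  set N := fc U N' with hN
  have hNU : N ⊆ U := fc_sub
  have hcond : ∀ h : Vt U → ℤ, ((∀ v ∈ N', h v = p) ∧ h (op U) = 0) ↔
      ((h (om U) = p ∧ h (op U) = 0) ∧ ∀ f : {f : Z2 // f ∈ U}, f.1 ∈ N → h (Sum.inl f) = p) := by
    intro h
    constructor
    · rintro ⟨h2, h3⟩
      exact ⟨⟨h2 _ h0, h3⟩, fun f hf => h2 _ (inl_mem.2 hf)⟩
    · rintro ⟨⟨h2, h3⟩, h4⟩
      refine ⟨fun v hv => ?_, h3⟩
      rcases v with f | b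
      · exact h4 f (inl_mem.1 hv)
      · cases b
        · exact absurd hv h1
        · exact h2
  have hinj : Function.Injective fun h : Ht (U \ N) => upN U N p h.1 := by
    intro h h' e
    apply Subtype.ext
    funext f
    by_cases hf : f ∈ U \ N
    · have h2 := congrFun e (Sum.inl ⟨f, (Finset.mem_sdiff.1 hf).1⟩)
      simp only [upN, Sum.elim_inl] at h2
      rwa [if_neg (Finset.mem_sdiff.1 hf).2, if_neg (Finset.mem_sdiff.1 hf).2] at h2
    · rw [h.2 f hf, h'.2 f hf]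
  have e1 : Zp (sv U) (tv U) (fun _ => b) (op U) N' p 0 (cg U ρ) =
      ∑' h : Vt U → ℤ, if (∀ v ∈ N', h v = p) ∧ h (op U) = 0 then
        W (grd (sv U) (tv U)) (fun _ => b) h * Real.exp (∑ v, cg U ρ v * (h v : ℝ)) else 0 := by
    unfold Zp
    refine tsum_congr fun h => ?_
    by_cases c : (∀ v ∈ N', h v = p) ∧ h (op U) = 0
    · rw [if_pos c, if_pos c]
    · rw [if_neg c, if_neg c]
  rw [e1]
  unfold Zn
  rw [← tsum_mul_left, ← hinj.tsum_eq]
  · refine tsum_congr fun h => ?_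
    rw [if_pos, W_upN b hNU p h.1 h.2, lin_upN hNU p, Real.exp_add]
    · ring
    · rw [hcond]
      refine ⟨⟨by simp [upN, om], by simp [upN, op]⟩, fun f hf => ?_⟩
      simp [upN, hf]
  · intro h hs
    rw [Function.mem_support] at hs
    by_cases hc : (∀ v ∈ N', h v = p) ∧ h (op U) = 0
    · obtain ⟨⟨h2, h3⟩, h4⟩ := (hcond h).1 hc
      refine ⟨⟨fun f => if hf : f ∈ U then (if f ∈ N then 0 else h (Sum.inl ⟨f, hf⟩)) else 0,
        fun f hf => ?_⟩, ?_⟩
      · show (if hf : f ∈ U then (if f ∈ N then 0 else h (Sum.inl ⟨f, hf⟩)) else 0) = 0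
        by_cases hU : f ∈ U
        · have hfN : f ∈ N := by
            by_contra hfN
            exact hf (Finset.mem_sdiff.2 ⟨hU, hfN⟩)
          rw [dif_pos hU, if_pos hfN]
        · rw [dif_neg hU]
      · funext v
        rcases v with f | b
        · show (if f.1 ∈ N then p else if hf : f.1 ∈ U then
            (if f.1 ∈ N then 0 else h (Sum.inl ⟨f.1, hf⟩)) else 0) = _
          by_cases hf : f.1 ∈ N
          · rw [if_pos hf, h4 f hf]
          · rw [if_neg hf, dif_pos f.2, if_neg hf]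
        · cases b
          · exact h3.symm
          · exact h2.symm
    · exact absurd (if_neg hc) hs

lemma secN_zero (N : Finset Z2) : secN U N 0 = 0 := by
  funext e
  simp [secN, vl]

lemma Zn_zero (b : ℝ) (N : Finset Z2) (ρ : Z2 → ℝ) : Zn b U N 0 ρ = Zρ b (U \ N) ρ := by
  unfold Zn Zρ
  rw [secN_zero]

lemma cN_zero (b : ℝ) (N : Finset Z2) : cN b U N 0 = wI b 0 ^ (bd U \ bd (U \ N)).card := by
  unfold cN
  rw [secN_zero]
  simp

lemma cN_le {b : ℝ} (hb : 0 ≤ b) (N : Finset Z2) (p : ℤ) :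
    cN b U N p ≤ wI b 0 ^ (bd U \ bd (U \ N)).card := by
  unfold cN
  rw [← Finset.prod_const]
  exact Finset.prod_le_prod (fun e _ => wI_nonneg hb _) fun e _ => wI_anti hb (by simp)

lemma Zn_nonneg {b : ℝ} (hb : 0 ≤ b) (N : Finset Z2) (p : ℤ) (ρ : Z2 → ℝ) :
    0 ≤ Zn b U N p ρ := by
  unfold Zn wt
  exact tsum_nonneg fun h => mul_nonneg (Finset.prod_nonneg fun e _ => wI_nonneg hb _)
    (Real.exp_pos _).le

/-- pinned sums with the value `0` on a set and its neighbours -/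
theorem Zp_nb (b : ℝ) {N' : Finset (Vt U)} (h0 : om U ∈ N') (h1 : op U ∉ N') (ρ : Z2 → ℝ) :
    Zp (sv U) (tv U) (fun _ => b) (op U) (nb (sv U) (tv U) N') 0 0 (cg U ρ) =
      wI b 0 ^ (bd U \ bd (U \ nbF U (fc U N'))).card *
        Zρ b (U \ nbF U (fc U N')) ρ := by
  classical
  rw [← ZQ_eq]
  unfold Zp
  refine tsum_congr fun h => ?_
  have hiff : ((∀ v ∈ nb (sv U) (tv U) N', h v = 0) ∧ h (op U) = 0) ↔
      ((h (om U) = 0 ∧ h (op U) = 0) ∧
        ∀ v ∈ vs U (nbF U (fc U N') : Set Z2), h v = 0) := by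
    constructor
    · rintro ⟨h2, h3⟩
      refine ⟨⟨h2 _ (mem_nb.2 (Or.inl h0)), h3⟩, fun v hv => ?_⟩
      obtain ⟨f, rfl, hf⟩ := mem_vs.1 hv
      exact h2 _ ((inl_mem_nb h0 h1).2 hf)
    · rintro ⟨⟨h2, h3⟩, h4⟩
      refine ⟨fun v hv => ?_, h3⟩
      rcases v with f | b
      · exact h4 _ (inl_mem_vs.2 ((inl_mem_nb h0 h1).1 hv))
      · cases b
        · exact h3
        · exact h2
  by_cases c : (∀ v ∈ nb (sv U) (tv U) N', h v = 0) ∧ h (op U) = 0
  · rw [if_pos c, if_pos (hiff.1 c)]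
  · rw [if_neg c, if_neg fun c' => c (hiff.2 c')]

lemma sum_cg (ρ : Z2 → ℝ) : ∑ v, cg U ρ v = ∑ f ∈ U, ρ f := by
  rw [Fintype.sum_sum_type]
  simp only [cg, Sum.elim_inl, Sum.elim_inr, Finset.sum_const_zero, add_zero]
  exact Finset.sum_coe_sort U fun f => ρ f

/-- the key inequality on the graph from the key inequality on faces -/
theorem keyP_of {b M : ℝ} (hb : 0 ≤ b) {T : Set Z2} {ρ ρ1 : Z2 → ℝ}
    (hρ : ∀ f, f ∉ T → ρ1 f = ρ f)
    (hkey : ∀ N : Finset Z2, Expl U T N →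
      Zn b U N 1 ρ * Z b (U \ nbF U N) ≤
        M * (Real.exp (∑ f ∈ U \ N, ρ1 f) * Zρ b (U \ nbF U N) ρ1) * Z b (U \ N)) :
    KeyP (sv U) (tv U) (fun _ => b) (om U) (op U) (vs U T : Set (Vt U)) (cg U ρ) (cg U ρ1)
      M := by
  intro N' h0 h1 hT hconn
  have hNT : ∀ f ∈ fc U N', f ∉ T := by
    intro f hf hfT
    obtain ⟨hfU, hf'⟩ := mem_fc.1 hf
    exact hT _ hf' (inl_mem_vs.2 hfT)
  have hE : Expl U T (fc U N') := by
    refine ⟨fc_sub, hNT, fun f hf => ?_⟩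
    obtain ⟨hfU, hf'⟩ := mem_fc.1 hf
    have sub : ∀ g ∈ U, g ∈ {f | ∀ hf : f ∈ U, (Sum.inl ⟨f, hf⟩ : Vt U) ∈ (N' : Set (Vt U))} →
        g ∈ (fc U N' : Set Z2) := fun g hg h2 => mem_fc.2 ⟨hg, h2 hg⟩
    -- a path inside `N'` never meets the lower outer face
    have key : ∀ v, Relation.ReflTransGen (fun a b => (a ∈ N' ∧ b ∈ N') ∧
        adjG (sv U) (tv U) a b) (om U) v → v = om U ∨
        ∃ f : {f : Z2 // f ∈ U}, v = Sum.inl f ∧ Jn U (fc U N' : Set Z2) (upp U) {f.1} := by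
      intro v hv
      induction hv with
      | refl => exact Or.inl rfl
      | @tail b c _ hbc ih =>
        obtain ⟨⟨hb, hc⟩, hadj⟩ := hbc
        rcases ih with rfl | ⟨f, rfl, a, ha, x, hx, ha', hp⟩
        · rcases adjG_cases hadj with ⟨f, g, h2, -⟩ | ⟨f, h2, -⟩ | ⟨f, h2, -⟩ | ⟨f, -, rfl, h3⟩ |
            ⟨f, h2, -⟩
          · unfold om at h2; cases h2
          · unfold om at h2; cases h2
          · unfold om at h2; cases h2
          · exact Or.inr ⟨f, rfl, f.1, h3, f.1, rfl, ⟨f.2, inl_mem.1 hc⟩,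
              Relation.ReflTransGen.refl⟩
          · exact absurd h2 om_ne_op
        · have hx' : x = f.1 := hx
          subst hx'
          rcases adjG_cases hadj with ⟨f', g, h2, rfl, e, h3⟩ | ⟨f', -, rfl, -⟩ |
            ⟨f', h2, rfl, h3⟩ | ⟨f', h2, -⟩ | ⟨f', h2, -⟩
          · rw [Sum.inl.injEq] at h2
            subst h2
            refine Or.inr ⟨g, rfl, a, ha, g.1, rfl, ha', hp.tail ?_⟩
            exact ⟨⟨f.2, inl_mem.1 hb⟩, ⟨g.2, inl_mem.1 hc⟩, e, h3⟩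
          · exact Or.inl rfl
          · exact absurd hc h1
          · unfold om at h2; cases h2
          · unfold op at h2; cases h2
    rcases key _ (hconn _ hf') with h2 | ⟨g, h2, h3⟩
    · unfold om at h2; cases h2
    · rw [Sum.inl.injEq] at h2
      subst h2
      exact h3
  have hk := hkey _ hE
  have hz : (0 : Vt U → ℝ) = cg U 0 := cg_zero.symm
  rw [Zp_eq b h0 h1 1, hz, Zp_eq b h0 h1 0, Zp_nb b h0 h1, Zp_nb b h0 h1, Zn_zero, cN_zero,
    Zρ_zero, Zρ_zero, sum_cg]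
  have eN : ∑ f ∈ fc U N', ρ1 f = ∑ f ∈ fc U N', ρ f :=
    Finset.sum_congr rfl fun f hf => hρ f (hNT f hf)
  rw [← Finset.sum_sdiff (fc_sub (U := U) (N' := N')), eN, Real.exp_add]
  simp only [Int.cast_one, mul_one, Int.cast_zero, mul_zero, Real.exp_zero]
  set c1 := wI b 0 ^ (bd U \ bd (U \ fc U N')).card with hc1
  set c2 := wI b 0 ^ (bd U \ bd (U \ nbF U (fc U N'))).card with hc2
  set c3 := Real.exp (∑ f ∈ fc U N', ρ f) with hc3
  have p1 : 0 < c1 := pow_pos (wI_zero_pos hb) _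
  have p2 : 0 < c2 := pow_pos (wI_zero_pos hb) _
  have p3 : 0 < c3 := Real.exp_pos _
  have hcN : cN b U (fc U N') 1 ≤ c1 := cN_le hb _ _
  have hZ0 : 0 ≤ Z b (U \ nbF U (fc U N')) := by
    unfold Z wt
    exact tsum_nonneg fun h => Finset.prod_nonneg fun e _ => wI_nonneg hb _
  calc cN b U (fc U N') 1 * c3 * Zn b U (fc U N') 1 ρ * (c2 * Z b (U \ nbF U (fc U N')))
      ≤ c1 * c3 * Zn b U (fc U N') 1 ρ * (c2 * Z b (U \ nbF U (fc U N'))) :=
        mul_le_mul_of_nonneg_right (mul_le_mul_of_nonneg_right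
          (mul_le_mul_of_nonneg_right hcN p3.le) (Zn_nonneg hb _ _ _))
          (mul_nonneg p2.le hZ0)
    _ = (c1 * c2 * c3) * (Zn b U (fc U N') 1 ρ * Z b (U \ nbF U (fc U N'))) := by ring
    _ ≤ (c1 * c2 * c3) * (M * (Real.exp (∑ f ∈ U \ fc U N', ρ1 f) *
          Zρ b (U \ nbF U (fc U N')) ρ1) * Z b (U \ fc U N')) :=
        mul_le_mul_of_nonneg_left hk (mul_pos (mul_pos p1 p2) p3).le
    _ = _ := by ring

end sums

section final

variable {V E : Type} [Fintype V] [DecidableEq V] [Fintype E] {s t : E → V}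

omit [Fintype E] in
lemma path_iff' {xl y : V} {h : V → ℤ} :
    Relation.ReflTransGen (adjS s t (Nh h)ᶜ) xl y ↔ LJ s t xl y h := path_iff

/-- the exploration inequality in terms of the indicator of the event -/
lemma ampS_ZA (hc : Conn s t) {J : E → ℝ} (hJ : ∀ e, 0 ≤ J e) {xl xr : V} {T : Set V}
    {r r1 : V → ℝ} {M : ℝ} (hM : 0 ≤ M) (hr : ∀ v, v ∉ T → 0 ≤ r v)
    (hr1 : ∀ v, v ∉ T → r1 v = r v) (hK : KeyP s t J xl xr T r r1 M) :
    ZA s t J xl xr r (gI fun N => ∃ y, (y = xr ∨ y ∈ T) ∧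
      Relation.ReflTransGen (adjS s t Nᶜ) xl y) ≤ M * Zt s t J xl xr r1 0 1 := by
  classical
  refine le_trans (le_of_eq ?_) (ampS hc hJ hM hr hr1 hK)
  rw [ZA_eq]
  refine tsum_congr fun h => ?_
  have hiff : (∃ y, (y = xr ∨ y ∈ T) ∧ Relation.ReflTransGen (adjS s t (Nh h)ᶜ) xl y) ↔
      HitT s t xl xr T h := by
    unfold HitT
    exact exists_congr fun y => and_congr_right fun _ => path_iff
  by_cases c : h xl = 0 ∧ h xr = 0
  · rw [if_pos c]
    by_cases c2 : HitT s t xl xr T h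
    · rw [if_neg fun c' => c'.2 c2]
      unfold gI
      rw [if_pos (hiff.2 c2), mul_zero]
    · rw [if_pos ⟨c, c2⟩]
      unfold gI
      rw [if_neg fun c' => c2 (hiff.1 c'), mul_one]
      rfl
  · rw [if_neg c, if_neg fun c' => c c'.1]

end final

/-- **S.AMP** -/
theorem stmtSMain : StmtSMain := by
  intro b M R r ρ ρ1 T ι I Bad A B Q ρA ρB F hb hM hR hr hρ hF hρT h1 hA hB hmono hsep hcov hkey
  have hb0 : 0 ≤ b := hb.le
  have hc := conn_SB (R := R) (r := r) (by omega) hr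
  set U := SB R r with hU
  have hoff : ∀ v, v ∉ (vs U T : Set (Vt U)) → cg U ρ1 v = cg U ρ v := by
    rintro (f | c) hv
    · exact hρT f.1 fun h => hv (inl_mem_vs.2 h)
    · rfl
  have hamp := ampS_ZA hc (fun _ => hb0) hM (fun v _ => cg_nonneg hρ v) hoff
    (keyP_of hb0 hρT hkey)
  have key := mainEv hc (fun _ => hb0) (cg_nonneg hρ) I (fun i T => Bad i (fcs U T))
    (fun i => vs U (A i)) (fun i => vs U (B i)) (fun i => vs U (Q i : Set Z2))
    (fun i => cg U (ρA i)) (fun i => cg U (ρB i)) (vs U (F : Set Z2))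
    (fun i hi v => ⟨cg_nonneg (fun f => (h1 i hi f).1) v, cg_nonneg (fun f => (h1 i hi f).2.1) v,
      by
        have h2 := cg_le (U := U) (fun f => (h1 i hi f).2.2) v
        rw [← cg_add] at h2
        exact h2⟩)
    (fun i hi v hv => cg_off (hA i hi) v hv) (fun i hi v hv => cg_off (hB i hi) v hv)
    (fun i hi N N' hN h => hmono i hi _ _ (fcs_mono hN) h)
    (fun i hi N h0 h0' hbad x hx y hy hxN hp =>
      hsep i hi _ hbad (Jn_of_sep h0 h0' (Q i) hx hy hxN hp))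
    (Ev := fun N => ∃ y, (y = op U ∨ y ∈ (vs U T : Set (Vt U))) ∧
      Relation.ReflTransGen (adjS (sv U) (tv U) Nᶜ) (om U) y)
    (fun N _ _ hEv => by
      obtain ⟨y, hy, hp⟩ := hEv
      have hp' : Relation.ReflTransGen (fun a b => (a ∈ (N : Set (Vt U)) ∧
          b ∈ (N : Set (Vt U))) ∧ adjG (sv U) (tv U) a b) (om U) y := by
        refine Relation.ReflTransGen.mono (fun a b hab => ?_) _ _ hp
        obtain ⟨ha, hb', he⟩ := hab
        rw [Finset.mem_compl, not_not] at ha hb'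
        exact ⟨⟨ha, hb'⟩, he⟩
      have hJ : Jn U (fcs U N) (upp U) (low U ∪ T) := by
        have hsub : ∀ f ∈ U, f ∈ {f | ∀ hf : f ∈ U, (Sum.inl ⟨f, hf⟩ : Vt U) ∈
            (N : Set (Vt U))} → f ∈ fcs U N := fun f _ h2 => h2
        rcases path_key hp' with h2 | h2 | ⟨f, h2, h3⟩
        · exfalso
          rcases hy with hy | hy
          · exact om_ne_op (h2.symm.trans hy)
          · rw [h2] at hy
            exact om_notin_vs hy
        · exact Jn_mono hsub Set.subset_union_left h2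
        · refine Jn_mono hsub ?_ h3
          rcases hy with hy | hy
          · exfalso
            rw [h2] at hy
            unfold op at hy
            cases hy
          · rw [h2] at hy
            have h4 : f.1 ∈ T := inl_mem_vs.1 hy
            intro g hg
            rw [Set.mem_singleton_iff] at hg
            rw [hg]
            exact Or.inr h4
      rcases hcov _ hJ with h | ⟨f, hf, hfN⟩
      · exact Or.inl h
      · exact Or.inr ⟨Sum.inl ⟨f, hF hf⟩, inl_mem_vs.2 hf, (mem_fcs (hF hf)).1 hfN⟩)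
    hamp
  have e1 : Zt (sv U) (tv U) (fun _ => b) (om U) (op U) (cg U ρ1) 0 1 =
      Real.exp (∑ f ∈ U, ρ1 f) * Zs b U (-1) ρ1 := by
    have h2 := Zt_shift (s := sv U) (t := tv U) (fun _ => b) (om U) (op U) (cg U ρ1) (-1) 0 1
    simp only [Int.cast_one, mul_one, neg_add_cancel, zero_add] at h2
    rw [h2, sum_cg, Zs_eq]
  rw [e1, ← Zρ_eq] at key
  refine le_trans (le_of_eq ?_) key
  congr 1
  · congr 1
    refine Finset.prod_congr rfl fun i _ => ?_
    rw [cg_add, cg_sub, ratio_eq hb0]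
  · symm
    refine prod_vs hF fun f hf => ?_
    exact E_eq b ⟨f, hf⟩

end Vale.Agent.P159.T1.S.H802
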