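import Vale.Agent.P159.T1.D.Stmts

/-!
Objects and statement of row S.AMP of plan 118.
-/

open Filter Topology

namespace Vale.Agent.P159.T1.S

open Vale.Agent.P159.T1.D

/-- boundary value `k` on `N` and on the upper part, `0` on the lower part of the outer face; `f` is
a face off `U \ N` seen from the bond `e` -/
def vl (N : Finset Z2) (k : ℤ) (e : Bnd) (f : Z2) : ℤ := if f ∈ N ∨ 0 ≤ e.1.2 then k else 0

/-- the sector with height `k` on `N` and on the upper part of the outer face -/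
def secN (U N : Finset Z2) (k : ℤ) (e : Bnd) : ℤ :=
  (if lf e ∈ U \ N then 0 else vl N k e (lf e)) - (if rt e ∈ U \ N then 0 else vl N k e (rt e))

/-- partition function of `U \ N` with height `k` on `N` and on the upper part, `0` on the lower
part, and charges `ρ` -/
noncomputable def Zn (b : ℝ) (U N : Finset Z2) (k : ℤ) (ρ : Z2 → ℝ) : ℝ :=
  ∑' h : Ht (U \ N), wt b (U \ N) (secN U N k) h.1 * Real.exp (ch (U \ N) ρ h.1)

open Classical in
/-- the faces of `U` which belong to `N`, or are neighbours of `N`, or touch the upper part of the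
outer face -/
noncomputable def nbF (U N : Finset Z2) : Finset Z2 :=
  U.filter fun f => f ∈ N ∨ f ∈ upp U ∨ ∃ g ∈ N, ∃ e, (rt e = f ∧ lf e = g) ∨ (rt e = g ∧ lf e = f)

/-- `N` is a set of faces of `U` off `T`, each of which is joined inside `N` to the upper boundary -/
def Expl (U : Finset Z2) (T : Set Z2) (N : Finset Z2) : Prop :=
  N ⊆ U ∧ (∀ f ∈ N, f ∉ T) ∧ ∀ f ∈ N, Jn U (N : Set Z2) (upp U) {f}

open Classical in
/-- S.AMP: exploration of the `{h ≤ 0}` cluster of the upper lip with the last line kept, FKG, arms.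
The cluster misses `T`, the charges `ρ`, `ρ1` agree off `T`. -/
def StmtSMain : Prop :=
  ∀ (b M : ℝ) (R r : ℕ) (ρ ρ1 : Z2 → ℝ) (T : Set Z2) (ι : Type) (I : Finset ι)
    (Bad : ι → Set Z2 → Prop) (A B : ι → Set Z2) (Q : ι → Finset Z2) (ρA ρB : ι → Z2 → ℝ)
    (F : Finset Z2),
    0 < b → 0 ≤ M → 2 ≤ R → 1 ≤ r → (∀ f, 0 ≤ ρ f) → F ⊆ SB R r →
    (∀ f, f ∉ T → ρ1 f = ρ f) →
    (∀ i ∈ I, ∀ f, 0 ≤ ρA i f ∧ 0 ≤ ρB i f ∧ ρA i f + ρB i f ≤ ρ f) →
    (∀ i ∈ I, ∀ f, f ∉ A i → ρA i f = 0) → (∀ i ∈ I, ∀ f, f ∉ B i → ρB i f = 0) →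
    (∀ i ∈ I, ∀ N N' : Set Z2, N ⊆ N' → Bad i N → Bad i N') →
    (∀ i ∈ I, ∀ N : Set Z2, Bad i N → ¬ Jn (SB R r) (N ∪ Q i)ᶜ (A i) (B i)) →
    (∀ N : Set Z2, Jn (SB R r) N (upp (SB R r)) (low (SB R r) ∪ T) →
      (∃ i ∈ I, Bad i N) ∨ ∃ f ∈ F, f ∈ N) →
    (∀ N : Finset Z2, Expl (SB R r) T N →
      Zn b (SB R r) N 1 ρ * Z b (SB R r \ nbF (SB R r) N) ≤
        M * (Real.exp (∑ f ∈ SB R r \ N, ρ1 f) * Zρ b (SB R r \ nbF (SB R r) N) ρ1) *
          Z b (SB R r \ N)) →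
    Zρ b (SB R r) ρ *
        (∏ i ∈ I, max 0 (1 - Zρ b (SB R r \ Q i) (fun f => ρA i f - ρB i f) /
          Zρ b (SB R r \ Q i) (fun f => ρA i f + ρB i f))) *
        (∏ f ∈ F, E b (SB R r) fun h => if 1 ≤ h f then 1 else 0) ≤
      M * (Real.exp (∑ f ∈ SB R r, ρ1 f) * Zs b (SB R r) (-1) ρ1)

end Vale.Agent.P159.T1.S
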