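import Vale.Agent.P159.T1.S.H802.Zmono

/-!
Exploration of the `{h ≤ 0}` cluster of the left lip with the last line kept: if on the unexplored
part the partition function of the sector `(1|0)` with the charges `r` is at most `M` times that of
`(1|1)` with the charges `r1`, the same holds for the whole graph on the event that the cluster
misses `T`.
-/

open Filter Topology

namespace Vale.Agent.P159.T1.S.H802

open Vale.Agent.P159 Vale.Agent.P159.H353 Vale.Agent.P159.T1.H934 Vale.Agent.P159.R2.H729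
open Vale.Agent.P159.T1.H897 (LJ lowS kt kt_nonneg kt_le kt_lim hasSum_kt_dbl summable_tilt2
  sum_elim LJ_of_dbl)

section key

variable {V E : Type} [Fintype V] [Fintype E]

/-- the inequality on the unexplored parts, with partial couplings next to the explored set -/
def KeyC (s t : E → V) (J : E → ℝ) (xl xr : V) (T : Set V) (r r1 : V → ℝ) (M : ℝ) : Prop :=
  ∀ (N : Finset V) (K : E → ℝ), xl ∈ N → xr ∉ N → (∀ v ∈ N, v ∉ T) →
    (∀ e, 0 ≤ K e ∧ K e ≤ J e) → (∀ e, s e ∉ N → t e ∉ N → K e = J e) →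
    (∀ v ∈ N, Relation.ReflTransGen
      (stC s t fun e => K e = 0 ∧ s e ∈ N ∧ t e ∈ N) xl v) →
    Zt s t K xl xr r 1 0 ≤ M * (Real.exp (∑ v, r1 v) * Zt s t K xl xr r1 0 0)

variable {s t : E → V}

/-- the property passes to the halved graph -/
theorem KeyC.dbl {J : E → ℝ} {xl xr : V} {T : Set V} {r r1 : V → ℝ} {M : ℝ}
    (h : KeyC s t J xl xr T r r1 M) :
    KeyC (s2 s) (t2 t) (J2 J) (Sum.inl xl) (Sum.inl xr) (Sum.inl '' T) (Sum.elim r 0)
      (Sum.elim r1 0) M := by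
  classical
  intro N K hxl hxr hT hK hoff hconn
  have hK0 : ∀ x, 0 ≤ K x := fun x => (hK x).1
  rw [Zt_dblK hK0, Zt_dblK hK0]
  have e1 : ∑ v, (Sum.elim r1 0 : V ⊕ E → ℝ) v = ∑ v, r1 v := by
    rw [Fintype.sum_sum_type]
    simp
  rw [e1]
  set N' : Finset V := Finset.univ.filter fun v => Sum.inl v ∈ N with hN'
  have mN : ∀ v, v ∈ N' ↔ Sum.inl v ∈ N := fun v => by
    rw [hN', Finset.mem_filter]
    exact ⟨fun h => h.2, fun h => ⟨Finset.mem_univ _, h⟩⟩
  -- a path in the halved graph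
  have key : ∀ y, Relation.ReflTransGen
      (stC (s2 s) (t2 t) fun e => K e = 0 ∧ s2 s e ∈ N ∧ t2 t e ∈ N) (Sum.inl xl) y →
      (∀ v, y = Sum.inl v → Relation.ReflTransGen
        (stC s t fun e => addK K e = 0 ∧ s e ∈ N' ∧ t e ∈ N') xl v) ∧
      (∀ e, y = Sum.inr e → (Relation.ReflTransGen
        (stC s t fun e => addK K e = 0 ∧ s e ∈ N' ∧ t e ∈ N') xl (s e) ∧ K (e, false) = 0 ∧
          s e ∈ N') ∨
        (Relation.ReflTransGen
        (stC s t fun e => addK K e = 0 ∧ s e ∈ N' ∧ t e ∈ N') xl (t e) ∧ K (e, true) = 0 ∧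
          t e ∈ N')) := by
    intro y hy
    induction hy with
    | refl =>
      refine ⟨fun v hv => ?_, fun e he => by cases he⟩
      rw [← Sum.inl.inj hv]
    | @tail a b _ hab ih =>
      obtain ⟨ih1, ih2⟩ := ih
      obtain ⟨⟨e, c⟩, ⟨hK0, hs, ht⟩, hec⟩ := hab
      refine ⟨fun v hv => ?_, fun f hf => ?_⟩
      · subst hv
        rcases c with _ | _ <;> rcases hec with ⟨h3, h4⟩ | ⟨h3, h4⟩ <;>
          simp [s2, t2] at h3 h4 hs ht
        · subst h3 h4
          rcases ih2 e rfl with ⟨p1, -, -⟩ | ⟨p1, p2, p3⟩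
          · exact p1
          · refine p1.tail ⟨e, ⟨?_, (mN _).2 hs, p3⟩, Or.inr ⟨rfl, rfl⟩⟩
            unfold addK
            rw [hK0, p2, add_zero]
        · subst h3 h4
          rcases ih2 e rfl with ⟨p1, p2, p3⟩ | ⟨p1, -, -⟩
          · refine p1.tail ⟨e, ⟨?_, p3, (mN _).2 ht⟩, Or.inl ⟨rfl, rfl⟩⟩
            unfold addK
            rw [hK0, p2, add_zero]
          · exact p1
      · subst hf
        rcases c with _ | _ <;> rcases hec with ⟨h3, h4⟩ | ⟨h3, h4⟩ <;>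
          simp [s2, t2] at h3 h4 hs ht
        · subst h3 h4
          exact Or.inl ⟨ih1 _ rfl, hK0, (mN _).2 hs⟩
        · subst h3 h4
          exact Or.inr ⟨ih1 _ rfl, hK0, (mN _).2 ht⟩
  refine h N' (addK K) ((mN _).2 hxl) (fun h' => hxr ((mN _).1 h')) (fun v hv hvT =>
    hT _ ((mN _).1 hv) ⟨v, hvT, rfl⟩) (fun e => ⟨add_nonneg (hK0 _) (hK0 _), ?_⟩)
    (fun e hs ht => ?_) fun v hv => (key _ (hconn _ ((mN _).1 hv))).1 v rfl
  · have h1 := (hK (e, false)).2
    have h2 := (hK (e, true)).2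
    unfold J2 at h1 h2
    unfold addK
    simp only at h1 h2
    linarith
  · -- the middle of the edge is not explored
    have hm : (Sum.inr e : V ⊕ E) ∉ N := by
      intro hm
      rcases (key _ (hconn _ hm)).2 e rfl with ⟨-, -, h3⟩ | ⟨-, -, h3⟩
      · exact hs h3
      · exact ht h3
    have h1 := hoff (e, false) (fun h' => hs ((mN _).2 h')) hm
    have h2 := hoff (e, true) hm (fun h' => ht ((mN _).2 h'))
    unfold addK
    rw [h1, h2]
    unfold J2
    ring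

/-- neighbours -/
noncomputable def nb (s t : E → V) (N : Finset V) : Finset V := by
  classical
  exact N ∪ Finset.univ.filter fun v => ∃ u ∈ N, adjG s t u v

omit [Fintype E] in
lemma mem_nb {N : Finset V} {v : V} : v ∈ nb s t N ↔ v ∈ N ∨ ∃ u ∈ N, adjG s t u v := by
  classical
  unfold nb
  rw [Finset.mem_union, Finset.mem_filter]
  simp only [Finset.mem_univ, true_and]

/-- the inequality on the unexplored parts, coarse form: `N` pinned for the upper bound, `N` and its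
neighbours pinned for the lower bound -/
def KeyP (s t : E → V) (J : E → ℝ) (xl xr : V) (T : Set V) (r r1 : V → ℝ) (M : ℝ) : Prop :=
  ∀ N : Finset V, xl ∈ N → xr ∉ N → (∀ v ∈ N, v ∉ T) →
    (∀ v ∈ N, Relation.ReflTransGen (fun a b => (a ∈ N ∧ b ∈ N) ∧ adjG s t a b) xl v) →
    Zp s t J xr N 1 0 r * Zp s t J xr (nb s t N) 0 0 0 ≤
      M * (Real.exp (∑ v, r1 v) * Zp s t J xr (nb s t N) 0 0 r1) * Zp s t J xr N 0 0 0

/-- partial couplings from the coarse form -/
theorem KeyC.of_keyP (hc : Conn s t) {J : E → ℝ} (hJ : ∀ e, 0 ≤ J e) {xl xr : V} {T : Set V}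
    {r r1 : V → ℝ} {M : ℝ} (hM : 0 ≤ M) (h : KeyP s t J xl xr T r r1 M) :
    KeyC s t J xl xr T r r1 M := by
  classical
  intro N K hxl hxr hT hK hoff hconn
  have hK0 : ∀ e, 0 ≤ K e := fun e => (hK e).1
  set Ci : E → Prop := fun e => s e ∈ N ∧ t e ∈ N with hCi
  set Ct : E → Prop := fun e => s e ∈ N ∨ t e ∈ N with hCt
  -- connections
  have c1 : ∀ v ∈ N, Relation.ReflTransGen (stC s t Ci) xl v := fun v hv =>
    Relation.ReflTransGen.mono (fun a b hab => by
      obtain ⟨e, he, h3⟩ := hab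
      exact ⟨e, he.2, h3⟩) xl v (hconn v hv)
  have c2 : ∀ v ∈ N, Relation.ReflTransGen (fun a b => (a ∈ N ∧ b ∈ N) ∧ adjG s t a b) xl v :=
    fun v hv => Relation.ReflTransGen.mono (fun a b hab => by
      obtain ⟨e, he, ⟨rfl, rfl⟩ | ⟨rfl, rfl⟩⟩ := hab
      · exact ⟨⟨he.1, he.2⟩, e, Or.inl ⟨rfl, rfl⟩⟩
      · exact ⟨⟨he.2, he.1⟩, e, Or.inr ⟨rfl, rfl⟩⟩) xl v (c1 v hv)
  have c3 : ∀ v ∈ nb s t N, Relation.ReflTransGen (stC s t Ct) xl v := by
    intro v hv
    have c4 : ∀ v ∈ N, Relation.ReflTransGen (stC s t Ct) xl v := fun v hv =>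
      Relation.ReflTransGen.mono (fun a b hab => by
        obtain ⟨e, he, h3⟩ := hab
        exact ⟨e, Or.inl he.1, h3⟩) xl v (c1 v hv)
    rcases mem_nb.1 hv with h1 | ⟨u, hu, e, he⟩
    · exact c4 v h1
    · refine (c4 u hu).tail ⟨e, ?_, he⟩
      rcases he with ⟨rfl, -⟩ | ⟨-, rfl⟩
      · exact Or.inl hu
      · exact Or.inr hu
  have inb : ∀ e, Ct e → s e ∈ nb s t N ∧ t e ∈ nb s t N := by
    rintro e (he | he)
    · exact ⟨mem_nb.2 (Or.inl he), mem_nb.2 (Or.inr ⟨_, he, e, Or.inl ⟨rfl, rfl⟩⟩)⟩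
    · exact ⟨mem_nb.2 (Or.inr ⟨_, he, e, Or.inr ⟨rfl, rfl⟩⟩), mem_nb.2 (Or.inl he)⟩
  -- pins as couplings
  have z1 : ∀ (p q : ℤ) (r : V → ℝ), cC K Ci * Zt s t K xl xr r p q =
      cC K Ci * Zp s t K xr N p q r := fun p q r =>
    Zp_gen (C := Ci) (C' := fun e => K e = 0 ∧ s e ∈ N ∧ t e ∈ N) hxl (fun e he => he)
      (fun e he => he.1) (fun e => rfl) hconn xr p q r
  have z2 : ∀ (p q : ℤ) (r : V → ℝ), cC K Ci * Zt s t (offC K Ci) xl xr r p q =
      cC (offC K Ci) Ci * Zp s t K xr N p q r := fun p q r =>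
    Zp_gen (C := Ci) (C' := Ci) hxl (fun e he => he)
      (fun e he => by unfold offC; rw [if_pos he])
      (fun e => by unfold offC; split_ifs <;> rfl) c1 xr p q r
  have z3 : ∀ (p q : ℤ) (r : V → ℝ), cC J Ci * Zt s t (offC J Ci) xl xr r p q =
      cC (offC J Ci) Ci * Zp s t J xr N p q r := fun p q r =>
    Zp_gen (C := Ci) (C' := Ci) hxl (fun e he => he)
      (fun e he => by unfold offC; rw [if_pos he])
      (fun e => by unfold offC; split_ifs <;> rfl) c1 xr p q r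
  have z4 : ∀ (p q : ℤ) (r : V → ℝ), cC J Ct * Zt s t (offC J Ct) xl xr r p q =
      cC (offC J Ct) Ct * Zp s t J xr (nb s t N) p q r := fun p q r =>
    Zp_gen (C := Ct) (C' := Ct) (mem_nb.2 (Or.inl hxl)) inb
      (fun e he => by unfold offC; rw [if_pos he])
      (fun e => by unfold offC; split_ifs <;> rfl) c3 xr p q r
  have pK := cC_pos hK0 Ci
  have pK2 := cC_pos (offC_nonneg hK0 Ci) Ci
  have pJ := cC_pos hJ Ci
  have pJ2 := cC_pos (offC_nonneg hJ Ci) Ci
  have pT := cC_pos hJ Ct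
  have pT2 := cC_pos (offC_nonneg hJ Ct) Ct
  -- monotonicity
  have m1 := Zt_mono hc (offC_nonneg hK0 Ci) (J := offC J Ci)
    (offC_anti hJ (fun e he => he) fun e _ => (hK e).2) xl xr r 1 0
  have m2 := Zt_mono hc (offC_nonneg hJ Ct) (J := offC K Ci)
    (offC_anti hK0 (fun e he => Or.inl he.1) fun e he => by
      rw [hoff e (fun h' => he (Or.inl h')) fun h' => he (Or.inr h')]) xl xr r1 0 0
  have hkey := h N hxl hxr hT c2
  -- names
  have w1 : Zt s t K xl xr r 1 0 = Zp s t K xr N 1 0 r := mul_left_cancel₀ pK.ne' (z1 1 0 r)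
  have w2 : Zt s t K xl xr r1 0 0 = Zp s t K xr N 0 0 r1 := mul_left_cancel₀ pK.ne' (z1 0 0 r1)
  have w3 : Zt s t K xl xr 0 0 0 = Zp s t K xr N 0 0 0 := mul_left_cancel₀ pK.ne' (z1 0 0 0)
  have y1 := z2 1 0 r
  have y2 := z2 0 0 r1
  have y3 := z2 0 0 0
  have y4 := z3 1 0 r
  have y5 := z3 0 0 0
  have y6 := z4 0 0 r1
  have y7 := z4 0 0 0
  have q0 := Zt_pos hc hK0 xl xr 0 0
  have q1 := Zt_pos hc (offC_nonneg hJ Ci) xl xr 0 0
  have q2 := Zt_pos hc (offC_nonneg hJ Ct) xl xr 0 0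
  rw [← w1] at y1
  rw [← w2] at y2
  rw [← w3] at y3
  -- all quantities in terms of `Zt`
  set a1 := Zt s t K xl xr r 1 0
  set a2 := Zt s t K xl xr r1 0 0
  set a3 := Zt s t K xl xr 0 0 0
  set b1 := Zt s t (offC K Ci) xl xr r 1 0
  set b2 := Zt s t (offC K Ci) xl xr r1 0 0
  set b3 := Zt s t (offC K Ci) xl xr 0 0 0
  set d1 := Zt s t (offC J Ci) xl xr r 1 0
  set d3 := Zt s t (offC J Ci) xl xr 0 0 0
  set f2 := Zt s t (offC J Ct) xl xr r1 0 0
  set f3 := Zt s t (offC J Ct) xl xr 0 0 0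
  set g1 := Zp s t J xr N 1 0 r
  set g3 := Zp s t J xr N 0 0 0
  set i2 := Zp s t J xr (nb s t N) 0 0 r1
  set i3 := Zp s t J xr (nb s t N) 0 0 0
  set k1 := cC K Ci
  set k2 := cC (offC K Ci) Ci
  set j1 := cC J Ci
  set j2 := cC (offC J Ci) Ci
  set l1 := cC J Ct
  set l2 := cC (offC J Ct) Ct
  set X := Real.exp (∑ v, r1 v) with hX
  have hXp : 0 < X := Real.exp_pos _
  -- `b = (k2 / k1) a`, `g = (j1 / j2) d`, `i = (l1 / l2) f`
  have b1' : b1 = k2 / k1 * a1 := by field_simp; linarith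
  have b2' : b2 = k2 / k1 * a2 := by field_simp; linarith
  have b3' : b3 = k2 / k1 * a3 := by field_simp; linarith
  have g1' : g1 = j1 / j2 * d1 := by field_simp; linarith
  have g3' : g3 = j1 / j2 * d3 := by field_simp; linarith
  have i2' : i2 = l1 / l2 * f2 := by field_simp; linarith
  have i3' : i3 = l1 / l2 * f3 := by field_simp; linarith
  have hk : 0 < k2 / k1 := div_pos pK2 pK
  have hj : 0 < j1 / j2 := div_pos pJ pJ2
  have hl : 0 < l1 / l2 := div_pos pT pT2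
  rw [b1', b3'] at m1
  rw [b2', b3'] at m2
  rw [g1', g3', i2', i3'] at hkey
  have n1 : a1 * d3 ≤ d1 * a3 := by
    have : k2 / k1 * (a1 * d3) ≤ k2 / k1 * (d1 * a3) := by linarith
    exact le_of_mul_le_mul_left this hk
  have n2 : f2 * a3 ≤ a2 * f3 := by
    have : k2 / k1 * (f2 * a3) ≤ k2 / k1 * (a2 * f3) := by linarith
    exact le_of_mul_le_mul_left this hk
  have n3 : d1 * f3 ≤ M * (X * f2) * d3 := by
    have : (j1 / j2 * (l1 / l2)) * (d1 * f3) ≤
        (j1 / j2 * (l1 / l2)) * (M * (X * f2) * d3) := by linarith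
    exact le_of_mul_le_mul_left this (mul_pos hj hl)
  -- conclusion
  have n4 : a1 * (d3 * f3) ≤ M * (X * a2) * (d3 * f3) := by
    calc a1 * (d3 * f3) = (a1 * d3) * f3 := by ring
      _ ≤ (d1 * a3) * f3 := mul_le_mul_of_nonneg_right n1 q2.le
      _ = (d1 * f3) * a3 := by ring
      _ ≤ (M * (X * f2) * d3) * a3 := mul_le_mul_of_nonneg_right n3 q0.le
      _ = M * X * d3 * (f2 * a3) := by ring
      _ ≤ M * X * d3 * (a2 * f3) :=
          mul_le_mul_of_nonneg_left n2 (mul_nonneg (mul_nonneg hM hXp.le) q1.le)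
      _ = _ := by ring
  exact le_of_mul_le_mul_right n4 (mul_pos q1 q2)

end key

end Vale.Agent.P159.T1.S.H802
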