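import Vale.Agent.P159.T1.H897.AmpC

/-!
Monotonicity of partition functions with charges in the couplings, pins as vanishing couplings,
halving with arbitrary couplings.
-/

open Filter Topology

namespace Vale.Agent.P159.T1.S.H802

open Vale.Agent.P159 Vale.Agent.P159.H353 Vale.Agent.P159.T1.H934 Vale.Agent.P159.R2.H729
open Vale.Agent.P159.T1.H897 (sum_elim)

section mono

variable {V E : Type} [Fintype V] [Fintype E] {s t : E → V}

open Classical in
lemma Zt_sector (J : E → ℝ) (xl xr : V) (r : V → ℝ) (k : ℤ) :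
    Zt s t J xl xr r 0 k = ∑' h : V → ℤ, W (grdL s t (px xl)) (Sum.elim J 0) h *
      (if ev xr h = k then Real.exp (∑ v, r v * (h v : ℝ)) else 0) := by
  unfold Zt
  refine tsum_congr fun h => ?_
  rw [W_px]
  show _ = (if h xl = 0 then W (grd s t) J h else 0) *
    (if h xr = k then Real.exp (∑ v, r v * (h v : ℝ)) else 0)
  by_cases h1 : h xl = 0 <;> by_cases h2 : h xr = k <;> simp [h1, h2]

theorem Zt_mono0 (hc : Conn s t) {J K : E → ℝ} (hJ : ∀ e, 0 ≤ J e) (hK : ∀ e, 0 ≤ K e)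
    (xl xr : V) (r : V → ℝ) (k : ℤ) :
    Zt s t J xl xr r 0 k * Zt s t (J + K) xl xr 0 0 0 ≤
      Zt s t (J + K) xl xr r 0 k * Zt s t J xl xr 0 0 0 := by
  classical
  obtain ⟨a, ha⟩ := exists_ln hc xl r
  have hJ' : ∀ e, 0 ≤ (Sum.elim J (0 : Unit → ℝ)) e := by
    rintro (e | e)
    · exact hJ e
    · exact le_rfl
  have hK' : ∀ e, 0 ≤ (Sum.elim K (0 : Unit → ℝ)) e := by
    rintro (e | e)
    · exact hK e
    · exact le_rfl
  have hm := mono_sector (grdL_inj (l := px xl) hc ⟨()⟩) hJ' hK' (ev xr) k a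
  have e0 : Sum.elim J (0 : Unit → ℝ) + Sum.elim K (0 : Unit → ℝ) =
      Sum.elim (J + K) (0 : Unit → ℝ) := by
    funext x
    rcases x with e | e
    · rfl
    · simp
  have hln : ∀ h : V → ℤ, ln (grdL s t (px xl)) a h = ∑ v, r v * (h v : ℝ) := fun h => (ha h).symm
  rw [e0] at hm
  simp only [hln] at hm
  have z0 : ∀ J : E → ℝ, Zt s t J xl xr 0 0 0 = ∑' h : V → ℤ,
      W (grdL s t (px xl)) (Sum.elim J 0) h * (if ev xr h = 0 then 1 else 0) := fun J => by
    rw [Zt_sector]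
    refine tsum_congr fun h => ?_
    simp
  rw [z0 J, z0 (J + K), Zt_sector J, Zt_sector (J + K)]
  exact hm

/-- the ratio increases with the couplings -/
theorem Zt_mono (hc : Conn s t) {J J' : E → ℝ} (hJ' : ∀ e, 0 ≤ J' e) (hJ : ∀ e, J' e ≤ J e)
    (xl xr : V) (r : V → ℝ) (p q : ℤ) :
    Zt s t J' xl xr r p q * Zt s t J xl xr 0 0 0 ≤
      Zt s t J xl xr r p q * Zt s t J' xl xr 0 0 0 := by
  have h0 := Zt_mono0 hc hJ' (K := fun e => J e - J' e) (fun e => sub_nonneg.2 (hJ e)) xl xr r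
    (q - p)
  have e0 : (J' + fun e => J e - J' e) = J := by
    funext e
    simp
  rw [e0] at h0
  have h1 := Zt_shift (s := s) (t := t) J' xl xr r 0 (q - p) p
  have h2 := Zt_shift (s := s) (t := t) J xl xr r 0 (q - p) p
  rw [zero_add, sub_add_cancel] at h1 h2
  rw [h1, h2, mul_assoc, mul_assoc]
  exact mul_le_mul_of_nonneg_left h0 (Real.exp_pos _).le

lemma Zt_pos (hc : Conn s t) {J : E → ℝ} (hJ : ∀ e, 0 ≤ J e) (xl xr : V) (r : V → ℝ) (p : ℤ) :
    0 < Zt s t J xl xr r p p := by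
  classical
  have h1 := Zt_shift (s := s) (t := t) J xl xr r 0 0 p
  rw [zero_add] at h1
  rw [h1]
  refine mul_pos (Real.exp_pos _) ?_
  unfold Zt
  refine (H897.summable_tilt2 hc hJ xl r (fun h => h xl = 0 ∧ h xr = 0)
    fun h hh => hh.1).tsum_pos (fun h => ?_) 0 ?_
  · split_ifs
    · exact mul_nonneg (W_nonneg hJ _) (Real.exp_pos _).le
    · exact le_rfl
  · rw [if_pos ⟨rfl, rfl⟩]
    exact mul_pos (W0_pos hJ) (Real.exp_pos _)

lemma Zt_nonneg {J : E → ℝ} (hJ : ∀ e, 0 ≤ J e) (xl xr : V) (r : V → ℝ) (p q : ℤ) :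
    0 ≤ Zt s t J xl xr r p q := by
  unfold Zt
  refine tsum_nonneg fun h => ?_
  split_ifs
  · exact mul_nonneg (W_nonneg hJ _) (Real.exp_pos _).le
  · exact le_rfl

end mono

section pins

variable {V E : Type} {s t : E → V}

/-- one step along an edge of `C` -/
def stC (s t : E → V) (C : E → Prop) (a b : V) : Prop :=
  ∃ e, C e ∧ ((s e = a ∧ t e = b) ∨ (s e = b ∧ t e = a))

/-- zero couplings keep the height constant -/
lemma const_of_zero [Fintype E] {C : E → Prop} {J : E → ℝ} (hC : ∀ e, C e → J e = 0) {xl v : V}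
    (hp : Relation.ReflTransGen (stC s t C) xl v) {h : V → ℤ} (hW : W (grd s t) J h ≠ 0) :
    h v = h xl := by
  have hst : ∀ e, C e → h (t e) = h (s e) := by
    intro e he
    by_contra hne
    apply hW
    unfold W
    refine Finset.prod_eq_zero (Finset.mem_univ e) ?_
    rw [hC e he, wI_zero_left, if_neg]
    show ¬ h (t e) - h (s e) = 0
    omega
  induction hp with
  | refl => rfl
  | @tail a b _ hab ih =>
    obtain ⟨e, he, ⟨rfl, rfl⟩ | ⟨rfl, rfl⟩⟩ := hab
    · rw [hst e he, ih]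
    · rw [← hst e he, ih]

open Classical in
/-- couplings off `C` -/
noncomputable def offC (J : E → ℝ) (C : E → Prop) (e : E) : ℝ := if C e then 0 else J e

open Classical in
/-- the constant of the pins -/
noncomputable def cC [Fintype E] (J : E → ℝ) (C : E → Prop) : ℝ :=
  ∏ e, if C e then wI (J e) 0 else 1

lemma offC_nonneg {J : E → ℝ} (hJ : ∀ e, 0 ≤ J e) (C : E → Prop) (e : E) : 0 ≤ offC J C e := by
  unfold offC
  split_ifs
  · exact le_rfl
  · exact hJ e

lemma offC_le {J : E → ℝ} (hJ : ∀ e, 0 ≤ J e) (C : E → Prop) (e : E) : offC J C e ≤ J e := by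
  unfold offC
  split_ifs
  · exact hJ e
  · exact le_rfl

lemma offC_anti {J J' : E → ℝ} (hJ' : ∀ e, 0 ≤ J' e) {C C' : E → Prop} (hC : ∀ e, C e → C' e)
    (h : ∀ e, ¬ C' e → J e ≤ J' e) (e : E) : offC J C' e ≤ offC J' C e := by
  unfold offC
  split_ifs with h1 h2 h2
  · exact le_rfl
  · exact hJ' e
  · exact absurd (hC e h2) h1
  · exact h e h1

lemma cC_pos [Fintype E] {J : E → ℝ} (hJ : ∀ e, 0 ≤ J e) (C : E → Prop) : 0 < cC J C := by
  unfold cC
  refine Finset.prod_pos fun e _ => ?_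
  split_ifs
  · exact wI_zero_pos (hJ e)
  · exact one_pos

/-- the weight when the height is constant along the edges of `C` -/
lemma W_offC [Fintype E] (J : E → ℝ) {C : E → Prop} {h : V → ℤ}
    (hh : ∀ e, C e → h (t e) = h (s e)) :
    W (grd s t) J h = cC J C * W (grd s t) (offC J C) h := by
  unfold W cC offC
  rw [← Finset.prod_mul_distrib]
  refine Finset.prod_congr rfl fun e _ => ?_
  have e1 : grd s t h e = h (t e) - h (s e) := rfl
  rw [e1]
  split_ifs with h1
  · rw [hh e h1, sub_self, wI_zero_left, if_pos rfl, mul_one]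
  · rw [one_mul]

variable [Fintype V] [Fintype E]

open Classical in
/-- pinned sum -/
noncomputable def Zp (s t : E → V) (J : E → ℝ) (xr : V) (N : Finset V) (p q : ℤ) (r : V → ℝ) :
    ℝ :=
  ∑' h : V → ℤ, if (∀ v ∈ N, h v = p) ∧ h xr = q then
    W (grd s t) J h * Real.exp (∑ v, r v * (h v : ℝ)) else 0

/-- pins are vanishing couplings: general form -/
lemma Zp_gen {J K : E → ℝ} {C C' : E → Prop} {N : Finset V} {xl : V} (hx : xl ∈ N)
    (hC : ∀ e, C e → s e ∈ N ∧ t e ∈ N) (hK : ∀ e, C' e → K e = 0)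
    (hKJ : ∀ e, offC K C e = offC J C e)
    (hN : ∀ v ∈ N, Relation.ReflTransGen (stC s t C') xl v) (xr : V) (p q : ℤ) (r : V → ℝ) :
    cC J C * Zt s t K xl xr r p q = cC K C * Zp s t J xr N p q r := by
  classical
  unfold Zt Zp
  rw [← tsum_mul_left, ← tsum_mul_left]
  refine tsum_congr fun h => ?_
  by_cases c1 : (∀ v ∈ N, h v = p) ∧ h xr = q
  · rw [if_pos ⟨c1.1 xl hx, c1.2⟩, if_pos c1]
    have hh : ∀ e, C e → h (t e) = h (s e) := fun e he => by
      rw [c1.1 _ (hC e he).1, c1.1 _ (hC e he).2]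
    rw [W_offC K hh, W_offC J hh]
    have e1 : offC K C = offC J C := funext hKJ
    rw [e1]
    ring
  · rw [if_neg c1, mul_zero]
    by_cases c2 : h xl = p ∧ h xr = q
    · rw [if_pos c2]
      have h0 : W (grd s t) K h = 0 := by
        by_contra hne
        apply c1
        refine ⟨fun v hv => ?_, c2.2⟩
        rw [const_of_zero hK (hN v hv) hne, c2.1]
      rw [h0, zero_mul, mul_zero]
    · rw [if_neg c2, mul_zero]

end pins

section dbl

variable {V E : Type} [Fintype V] [Fintype E] {s t : E → V}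

omit [Fintype V] in
lemma W_dblK (K : E × Bool → ℝ) (h : V → ℤ) (g : E → ℤ) :
    W (grd (s2 s) (t2 t)) K (Sum.elim h g) =
      ∏ e, wI (K (e, false)) (g e - h (s e)) * wI (K (e, true)) (h (t e) - g e) := by
  unfold W
  rw [Fintype.prod_prod_type]
  refine Finset.prod_congr rfl fun e _ => ?_
  rw [Fintype.prod_bool, mul_comm]
  rfl

/-- the couplings of the two halves add -/
def addK (K : E × Bool → ℝ) (e : E) : ℝ := K (e, false) + K (e, true)

omit [Fintype V] in
theorem hasSum_dblK {K : E × Bool → ℝ} (hK : ∀ x, 0 ≤ K x) (h : V → ℤ) :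
    HasSum (fun g : E → ℤ => W (grd (s2 s) (t2 t)) K (Sum.elim h g))
      (W (grd s t) (addK K) h) := by
  have h1 : ∀ e, HasSum (fun g : ℤ => wI (K (e, false)) (g - h (s e)) *
      wI (K (e, true)) (h (t e) - g)) (wI (addK K e) (h (t e) - h (s e))) := by
    intro e
    have h2 := T1.H532.wI_conv (hK (e, false)) (hK (e, true)) (h (t e) - h (s e))
    have h3 := (Equiv.subRight (h (s e))).hasSum_iff.2 h2
    have e0 : ((fun m => wI (K (e, false)) m * wI (K (e, true)) (h (t e) - h (s e) - m)) ∘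
        Equiv.subRight (h (s e))) =
        fun g : ℤ => wI (K (e, false)) (g - h (s e)) * wI (K (e, true)) (h (t e) - g) := by
      funext g
      show wI (K (e, false)) (g - h (s e)) *
        wI (K (e, true)) (h (t e) - h (s e) - (g - h (s e))) = _
      congr 2
      ring
    rwa [e0] at h3
  have h4 := T1.H532.prod_real (a := fun e g => wI (K (e, false)) (g - h (s e)) *
    wI (K (e, true)) (h (t e) - g)) (fun e => (h1 e).summable)
  have e1 : (∏ e, ∑' g, wI (K (e, false)) (g - h (s e)) * wI (K (e, true)) (h (t e) - g)) =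
      W (grd s t) (addK K) h := Finset.prod_congr rfl fun e _ => (h1 e).tsum_eq
  rw [e1] at h4
  simpa only [W_dblK] using h4

omit [Fintype V] in
theorem tsum_dblK {K : E × Bool → ℝ} (hK : ∀ x, 0 ≤ K x) (F : (V → ℤ) → ℝ)
    (hF : ∀ x, 0 ≤ F x) :
    ∑' p : (V → ℤ) × (E → ℤ), F p.1 * W (grd (s2 s) (t2 t)) K (Sum.elim p.1 p.2) =
      ∑' x, F x * W (grd s t) (addK K) x := by
  set f : (V → ℤ) × (E → ℤ) → ℝ :=
    fun p => F p.1 * W (grd (s2 s) (t2 t)) K (Sum.elim p.1 p.2) with hf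
  have h0 : ∀ p, 0 ≤ f p := fun p => mul_nonneg (hF _) (W_nonneg hK _)
  have h1 : ∀ x, HasSum (fun g => f (x, g)) (F x * W (grd s t) (addK K) x) :=
    fun x => (hasSum_dblK hK x).mul_left (F x)
  have h2 : ∀ x, ∑' g, f (x, g) = F x * W (grd s t) (addK K) x := fun x => (h1 x).tsum_eq
  by_cases hs : Summable fun x => F x * W (grd s t) (addK K) x
  · have h3 : Summable f := by
      rw [summable_prod_of_nonneg h0]
      exact ⟨fun x => (h1 x).summable, hs.congr fun x => (h2 x).symm⟩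
    rw [h3.tsum_prod]
    exact tsum_congr h2
  · rw [tsum_eq_zero_of_not_summable hs, tsum_eq_zero_of_not_summable]
    intro h3
    exact hs (h3.prod.congr h2)

/-- the partition functions on the halved graph, arbitrary couplings of the halves -/
lemma Zt_dblK {K : E × Bool → ℝ} (hK : ∀ x, 0 ≤ K x) (xl xr : V) (r : V → ℝ) (p q : ℤ) :
    Zt (s2 s) (t2 t) K (Sum.inl xl) (Sum.inl xr) (Sum.elim r 0) p q =
      Zt s t (addK K) xl xr r p q := by
  classical
  have h := tsum_dblK (s := s) (t := t) hK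
    (fun h => if h xl = p ∧ h xr = q then Real.exp (∑ v, r v * (h v : ℝ)) else 0)
    (fun h => by split_ifs <;> positivity)
  unfold Zt
  rw [← (eb V E).symm.tsum_eq]
  have e1 : ∀ h : V → ℤ, (if h xl = p ∧ h xr = q then
      W (grd s t) (addK K) h * Real.exp (∑ v, r v * (h v : ℝ)) else 0) =
      (if h xl = p ∧ h xr = q then Real.exp (∑ v, r v * (h v : ℝ)) else 0) *
        W (grd s t) (addK K) h := fun h => by
    split_ifs
    · ring
    · ring
  rw [tsum_congr e1, ← h]
  refine tsum_congr fun x => ?_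
  obtain ⟨h, g⟩ := x
  show (if (Sum.elim h g : V ⊕ E → ℤ) (Sum.inl xl) = p ∧
      (Sum.elim h g : V ⊕ E → ℤ) (Sum.inl xr) = q then
      W (grd (s2 s) (t2 t)) K (Sum.elim h g) *
        Real.exp (∑ v, (Sum.elim r 0 : V ⊕ E → ℝ) v * ((Sum.elim h g : V ⊕ E → ℤ) v : ℝ)) else 0) =
    (if h xl = p ∧ h xr = q then Real.exp (∑ v, r v * (h v : ℝ)) else 0) *
      W (grd (s2 s) (t2 t)) K (Sum.elim h g)
  rw [sum_elim]
  by_cases h1 : h xl = p ∧ h xr = q
  · have h1' : (Sum.elim h g : V ⊕ E → ℤ) (Sum.inl xl) = p ∧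
      (Sum.elim h g : V ⊕ E → ℤ) (Sum.inl xr) = q := h1
    rw [if_pos h1', if_pos h1]
    ring
  · have h1' : ¬ ((Sum.elim h g : V ⊕ E → ℤ) (Sum.inl xl) = p ∧
      (Sum.elim h g : V ⊕ E → ℤ) (Sum.inl xr) = q) := h1
    rw [if_neg h1', if_neg h1, zero_mul]

end dbl

end Vale.Agent.P159.T1.S.H802
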